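import Vale.Agent.P207.N3.H629.Apriori
import Vale.Agent.P207.N3.H639.Lin
import Vale.Agent.P207.N3.H547.Case2
import Vale.Agent.P207.N3.H578.Inst

/-!
# P207, line N3, P17 (ii), (T3): the gradient of a leaf minus its Taylor polynomial is flat
-/

open Set Filter Topology Metric InnerProductSpace MeasureTheory
open scoped ContDiff RealInnerProductSpace Gradient

noncomputable section

namespace Vale.Agent.P207.N3.H629

open P207N3H639 H547 H578 H254 Jet

theorem norm_le_two (v : E2) : ‖v‖ ≤ ‖v 0‖ + ‖v 1‖ := by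
  conv_lhs => rw [Jet.eq_sum v]
  refine (norm_add_le _ _).trans ?_
  rw [norm_smul, norm_smul]
  simp [Jet.e1, Jet.e2]

theorem mono_eq (i j : ℕ) (q : E2) : mono i j q = dv i (q 0) * dv j (q 1) := by
  unfold mono dv
  rw [div_mul_div_comm]

theorem gm_zero_zero (q : E2) : gm (0, 0) q = 0 := by
  ext i
  fin_cases i
  · simp [gm, dv']
  · simp [gm, dv']

theorem sum_gm_zero (J : ℕ) (T : ℕ × ℕ → ℝ) (q : E2) :
    ∑ a ∈ tri J, T a * gm a q 0 = Jet.tay J (fun i j => T (i + 1, j)) q := by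
  rw [sum_tri, Finset.sum_range_succ']
  have h0 : ∑ j ∈ Finset.range (J + 1 - 0), T (0, j) * gm (0, j) q 0 = 0 :=
    Finset.sum_eq_zero fun j _ => by rw [gm_zero]; simp [dv']
  rw [h0, add_zero]
  unfold Jet.tay
  refine Finset.sum_congr rfl fun i _ => ?_
  have e : J + 1 - (i + 1) = J - i := by omega
  rw [e]
  refine Finset.sum_congr rfl fun j _ => ?_
  rw [gm_zero, mono_eq, smul_eq_mul, mul_comm]
  rfl

theorem sum_gm_one (J : ℕ) (T : ℕ × ℕ → ℝ) (q : E2) :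
    ∑ a ∈ tri J, T a * gm a q 1 = Jet.tay J (fun i j => T (i, j + 1)) q := by
  have h1 : ∀ i ∈ Finset.range (J + 1), ∑ j ∈ Finset.range (J + 1 - i), T (i, j) * gm (i, j) q 1
      = ∑ j ∈ Finset.range (J - i), mono i j q • T (i, j + 1) := by
    intro i hi
    rw [Finset.mem_range] at hi
    have e : J + 1 - i = J - i + 1 := by omega
    rw [e, Finset.sum_range_succ']
    have h0 : T (i, 0) * gm (i, 0) q 1 = 0 := by rw [gm_one]; simp [dv']
    rw [h0, add_zero]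
    refine Finset.sum_congr rfl fun j _ => ?_
    rw [gm_one, mono_eq, smul_eq_mul, mul_comm]
    rfl
  rw [sum_tri, Finset.sum_congr rfl h1, Finset.sum_range_succ, Nat.sub_self, Finset.sum_range_zero,
    add_zero]
  rfl

/-- the Taylor polynomials of the gradient of a function -/
theorem sum_gm {G : Type*} [Fintype G] {J : ℕ} {ix : G → ℕ × ℕ} (hi : Function.Injective ix)
    (hr : ∀ a : ℕ × ℕ, (∃ g, ix g = a) ↔ 1 ≤ a.1 + a.2 ∧ a.1 + a.2 ≤ J) (f : ℕ × ℕ → ℝ)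
    (f0 : f (0, 0) = 0) : ∑ g, f (ix g) = ∑ a ∈ tri J, f a := by
  classical
  rw [← Finset.sum_image (f := f) (s := Finset.univ) (g := ix) (fun x _ y _ h => hi h)]
  refine Finset.sum_subset (fun a ha => ?_) fun a ha h2 => ?_
  · obtain ⟨g, -, rfl⟩ := Finset.mem_image.1 ha
    exact mem_tri.2 ((hr _).1 ⟨g, rfl⟩).2
  · rw [mem_tri] at ha
    have h3 : a = (0, 0) := by
      by_contra h
      refine h2 ?_
      have h4 : 1 ≤ a.1 + a.2 := by
        by_contra h5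
        exact h (Prod.ext (by omega) (by omega))
      obtain ⟨g, hg⟩ := (hr a).2 ⟨h4, ha⟩
      exact Finset.mem_image.2 ⟨g, Finset.mem_univ _, hg⟩
    rw [h3, f0]

/-- the mixed derivatives of a leaf are bounded -/
theorem exists_MB (H : Half) (m : ℕ) {δ : ℝ} (hδ : δ < H.r) {y : E2} (hy : y ∈ ball (0 : E2) H.r) :
    ∃ C, 0 ≤ C ∧ MB (H.S y) δ C m := by
  obtain ⟨C, hC⟩ := S_bdd H m (mem_ball_zero_iff.1 hy) hδ
  refine ⟨max C 0, le_max_right _ _, MB_of (fun q hq => ?_) fun q hq => ?_⟩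
  · exact (H.S_smooth y hy).contDiffAt (isOpen_ball.mem_nhds (ball_subset_ball hδ.le hq))
  · exact (hC y (mem_closedBall_zero_iff.2 le_rfl) q (ball_subset_closedBall hq) m le_rfl).trans
      (le_max_left _ _)

/-- (T3): the gradient of a leaf minus its Taylor polynomial. -/
theorem fl_leaf {G : Type*} [Fintype G] (H : Half) {δ : ℝ} (hδ : δ < H.r) {y : E2}
    (hy : y ∈ ball (0 : E2) H.r) {J : ℕ} {ix : G → ℕ × ℕ} (hi : Function.Injective ix)
    (hr : ∀ a : ℕ × ℕ, (∃ g, ix g = a) ↔ 1 ≤ a.1 + a.2 ∧ a.1 + a.2 ≤ J) :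
    Fl (ball (0 : E2) δ) J (fun q => ∇ (H.S y) q - ∑ g, Tj (H.S y) (ix g) • gm (ix g) q) := by
  obtain ⟨C, hC0, hC⟩ := exists_MB H (J + 1) hδ hy
  have hs : ∀ q ∈ ball (0 : E2) δ, ContDiffAt ℝ ∞ (H.S y) q := fun q hq =>
    (H.S_smooth y hy).contDiffAt (isOpen_ball.mem_nhds (ball_subset_ball hδ.le hq))
  refine ⟨2 * (2 ^ J * C), by positivity, fun q hq => ?_⟩
  have h00 : (0 : E2) ∈ ball (0 : E2) δ :=
    mem_ball_self ((norm_nonneg q).trans_lt (mem_ball_zero_iff.1 hq))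
  have hsum : ∀ i : Fin 2, (∑ g, Tj (H.S y) (ix g) • gm (ix g) q) i
      = ∑ a ∈ tri J, Tj (H.S y) a * gm a q i := by
    intro i
    have e1 : (∑ g, Tj (H.S y) (ix g) • gm (ix g) q) i
        = ∑ g, Tj (H.S y) (ix g) * gm (ix g) q i := by
      simp
    rw [e1]
    exact sum_gm hi hr (fun a => Tj (H.S y) a * gm a q i) (by rw [gm_zero_zero]; simp)
  have hb : ∀ l : Fin 2, ‖Dd l (H.S y) q - Jet.tay J (jet (Dd l (H.S y))) q‖ ≤ 2 ^ J * C * ‖q‖ ^ J :=
    fun l => taylor_bound J (fun q hq => smooth_Dd (hs q hq) l) (MB_Dd hs hC l) q hq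
  have k0 : ‖(∇ (H.S y) q - ∑ g, Tj (H.S y) (ix g) • gm (ix g) q) 0‖ ≤ 2 ^ J * C * ‖q‖ ^ J := by
    have e : tay J (fun i j => Tj (H.S y) (i + 1, j)) q = Jet.tay J (jet (Dd 0 (H.S y))) q :=
      congrFun (tay_congr fun i j _ => (jet_D1 (hs 0 h00) i j).symm) q
    rw [PiLp.sub_apply, hsum, sum_gm_zero, e, grad_apply]
    exact hb 0
  have k1 : ‖(∇ (H.S y) q - ∑ g, Tj (H.S y) (ix g) • gm (ix g) q) 1‖ ≤ 2 ^ J * C * ‖q‖ ^ J := by
    have e : tay J (fun i j => Tj (H.S y) (i, j + 1)) q = Jet.tay J (jet (Dd 1 (H.S y))) q := by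
      rw [Dd_one]
      rfl
    rw [PiLp.sub_apply, hsum, sum_gm_one, e, grad_apply]
    exact hb 1
  calc _ ≤ _ + _ := norm_le_two _
    _ ≤ 2 ^ J * C * ‖q‖ ^ J + 2 ^ J * C * ‖q‖ ^ J := add_le_add k0 k1
    _ = 2 * (2 ^ J * C) * ‖q‖ ^ J := by ring

end Vale.Agent.P207.N3.H629
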