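import Vale.Agent.P207.N3.H545.Interp
import Vale.Agent.P207.N3.H639.Bd

/-!
# P207, line N3, row P3ELB: one exponential rate for all derivatives

A sequence of functions on a ball which is bounded in every `C^k` and tends to `0` in `C^0` with
rate `b < 1` tends to `0` in every `C^k` with every rate `b' > b`.
-/

open Set Filter Topology Metric

namespace Vale.Agent.P207.N3.H629

open P207N3H639

variable {E : Type} [NormedAddCommGroup E] [NormedSpace ℝ E]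

theorem bd_contDiffOn {U : Set E} (hU : IsOpen U) {k : ℕ} : ∀ {F : Type} [NormedAddCommGroup F]
    [NormedSpace ℝ F] {f : E → F} {C : ℝ}, Bd U k f C → ContDiffOn ℝ k f U := by
  induction k with
  | zero => intro F _ _ f C h; exact contDiffOn_zero.2 h.1
  | succ k ih =>
    intro F _ _ f C h
    have h1 := ih h.2.2
    have h2 : ContDiffOn ℝ ((k : WithTop ℕ∞) + 1) f U := by
      rw [contDiffOn_succ_iff_fderiv_of_isOpen hU]
      exact ⟨fun x hx => (h.1 x hx).differentiableWithinAt, by simp, h1⟩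
    exact_mod_cast h2

theorem bd_iter {U : Set E} {k : ℕ} : ∀ {F : Type} [NormedAddCommGroup F]
    [NormedSpace ℝ F] {f : E → F} {C : ℝ}, Bd U k f C → ∀ x ∈ U, ‖iteratedFDeriv ℝ k f x‖ ≤ C := by
  induction k with
  | zero => intro F _ _ f C h x hx; rw [norm_iteratedFDeriv_zero]; exact h.2 x hx
  | succ k ih =>
    intro F _ _ f C h x hx
    rw [← norm_iteratedFDeriv_fderiv]
    exact ih h.2.2 x hx

/-- The converse: `C^∞` on an open set, all derivatives of order `≤ k` bounded by `C`. -/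
theorem bd_of_iter {U : Set E} (hU : IsOpen U) {k : ℕ} : ∀ {F : Type} [NormedAddCommGroup F]
    [NormedSpace ℝ F] {f : E → F} {C : ℝ}, ContDiffOn ℝ k f U →
    (∀ j ≤ k, ∀ x ∈ U, ‖iteratedFDeriv ℝ j f x‖ ≤ C) → Bd U k f C := by
  induction k with
  | zero =>
    intro F _ _ f C h hb
    refine ⟨h.continuousOn, fun x hx => ?_⟩
    have := hb 0 le_rfl x hx
    rwa [norm_iteratedFDeriv_zero] at this
  | succ k ih =>
    intro F _ _ f C h hb
    have h2 : ContDiffOn ℝ ((k : WithTop ℕ∞) + 1) f U := by exact_mod_cast h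
    rw [contDiffOn_succ_iff_fderiv_of_isOpen hU] at h2
    refine ⟨fun x hx => (h2.1 x hx).differentiableAt (hU.mem_nhds hx), fun x hx => ?_,
      ih h2.2.2 fun j hj x hx => ?_⟩
    · have := hb 0 (Nat.zero_le _) x hx
      rwa [norm_iteratedFDeriv_zero] at this
    · rw [norm_iteratedFDeriv_fderiv]
      exact hb (j + 1) (by omega) x hx

/-- interpolation on a ball, without loss of domain. -/
theorem exists_interp (n : ℕ) {δ : ℝ} (hδ : 0 < δ) : ∃ C : ℝ, 0 ≤ C ∧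
    ∀ {F : Type} [NormedAddCommGroup F] [NormedSpace ℝ F] (f : E → F) (h M₀ M₁ : ℝ), 0 < h → h ≤ 1 →
      Bd (ball (0 : E) δ) (n + 2) f M₁ → (∀ x ∈ ball (0 : E) δ, ‖f x‖ ≤ M₀) →
      ∀ x ∈ ball (0 : E) δ, ‖fderiv ℝ f x‖ ≤ C * (h⁻¹ * M₀ + h ^ (n + 1) * M₁) := by
  obtain ⟨C, hC, H⟩ := H545.exists_deriv_interp.{0} n
  set D : ℝ := 1 + (2 * δ) ^ (n + 2) with hD
  have hD1 : 1 ≤ D := by
    have : 0 ≤ (2 * δ) ^ (n + 2) := by positivity
    linarith
  refine ⟨4 / δ * (C * D), by positivity, ?_⟩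
  intro F _ _ f h M₀ M₁ hh hh1 hf hM₀ x hx
  have hM₀0 : 0 ≤ M₀ := (norm_nonneg _).trans (hM₀ x hx)
  have hM₁0 : 0 ≤ M₁ := hf.nonneg ⟨x, hx⟩
  have hcd := bd_contDiffOn isOpen_ball hf
  set K : ℝ := C * D * (h⁻¹ * M₀ + h ^ (n + 1) * M₁) with hK
  have hK0 : 0 ≤ K := by positivity
  -- derivatives in the direction of points of the ball
  have key : ∀ y ∈ ball (0 : E) δ, ‖fderiv ℝ f x (y - x)‖ ≤ K := by
    intro y hy
    have hmem : ∀ t ∈ Icc (0 : ℝ) h, x + t • (y - x) ∈ ball (0 : E) δ := by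
      intro t ht
      have := (convex_ball (0 : E) δ) hx hy (a := 1 - t) (b := t) (by linarith [ht.2])
        ht.1 (by ring)
      have e : (1 - t) • x + t • y = x + t • (y - x) := by
        rw [sub_smul, one_smul, smul_sub]; abel
      rwa [e] at this
    set g : ℝ → F := fun t => f (x + t • (y - x)) with hg
    have hgd : ∀ t ∈ Icc (0 : ℝ) h, ContDiffAt ℝ (n + 2 : ℕ) g t := by
      intro t ht
      have h1 : ContDiffAt ℝ (n + 2 : ℕ) f (x + t • (y - x)) :=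
        hcd.contDiffAt (isOpen_ball.mem_nhds (hmem t ht))
      exact h1.comp t (contDiffAt_const.add (contDiffAt_id.smul contDiffAt_const))
    have hgM : ∀ t ∈ Icc (0 : ℝ) h, ‖iteratedDeriv (n + 2) g t‖ ≤ M₁ * D := by
      intro t ht
      have h1 : ContDiffAt ℝ (n + 2 : ℕ) f (x + t • (y - x)) :=
        hcd.contDiffAt (isOpen_ball.mem_nhds (hmem t ht))
      refine (H545.norm_iteratedDeriv_line_le h1).trans ?_
      have h2 := bd_iter hf _ (hmem t ht)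
      have h3 : ‖y - x‖ ≤ 2 * δ := by
        have a := mem_ball_zero_iff.1 hx
        have b := mem_ball_zero_iff.1 hy
        have := norm_sub_le y x
        linarith
      have h4 : ‖y - x‖ ^ (n + 2) ≤ D := by
        have := pow_le_pow_left₀ (norm_nonneg (y - x)) h3 (n + 2)
        rw [hD]; linarith
      exact mul_le_mul h2 h4 (by positivity) hM₁0
    have h5 := H F g h M₀ (M₁ * D) hh hgd (fun t ht => hM₀ _ (hmem t ht)) hgM
    have h6 : deriv g 0 = fderiv ℝ f x (y - x) := by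
      have hd : DifferentiableAt ℝ f x := by
        have := hf.1 x hx
        exact this
      have hl : HasDerivAt (fun t : ℝ => x + t • (y - x)) (y - x) 0 := by
        simpa using ((hasDerivAt_id (0 : ℝ)).smul_const (y - x)).const_add x
      have hd' : HasFDerivAt f (fderiv ℝ f x) (x + (0 : ℝ) • (y - x)) := by
        simpa using hd.hasFDerivAt
      exact (hd'.comp_hasDerivAt 0 hl).deriv
    rw [h6] at h5
    refine h5.trans ?_
    rw [hK, mul_assoc]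
    refine mul_le_mul_of_nonneg_left ?_ hC
    have a1 : h⁻¹ * M₀ ≤ D * (h⁻¹ * M₀) := by
      have : 0 ≤ h⁻¹ * M₀ := by positivity
      nlinarith
    have a2 : h ^ (n + 1) * (M₁ * D) = D * (h ^ (n + 1) * M₁) := by ring
    rw [a2, mul_add]
    linarith
  have h0 : (0 : E) ∈ ball (0 : E) δ := mem_ball_self hδ
  refine ContinuousLinearMap.opNorm_le_bound _ (by positivity) fun v => ?_
  rcases eq_or_ne v 0 with rfl | hv
  · simp
  have hv' : 0 < ‖v‖ := norm_pos_iff.2 hv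
  set w : E := (δ / (2 * ‖v‖)) • v with hw
  have hwn : ‖w‖ = δ / 2 := by
    rw [hw, norm_smul, Real.norm_of_nonneg (by positivity)]
    field_simp
  have hwm : w ∈ ball (0 : E) δ := by rw [mem_ball_zero_iff, hwn]; linarith
  have h7 : ‖fderiv ℝ f x w‖ ≤ 2 * K := by
    have : fderiv ℝ f x w = fderiv ℝ f x (w - x) - fderiv ℝ f x (0 - x) := by
      rw [← map_sub]; congr 1; abel
    rw [this]
    refine (norm_sub_le _ _).trans ?_
    have := key w hwm
    have := key 0 h0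
    linarith
  have h8 : fderiv ℝ f x v = (2 * ‖v‖ / δ) • fderiv ℝ f x w := by
    rw [hw, map_smul, smul_smul]
    have : 2 * ‖v‖ / δ * (δ / (2 * ‖v‖)) = 1 := by field_simp
    rw [this, one_smul]
  rw [h8, norm_smul, Real.norm_of_nonneg (by positivity)]
  calc 2 * ‖v‖ / δ * ‖fderiv ℝ f x w‖ ≤ 2 * ‖v‖ / δ * (2 * K) := by gcongr
    _ = 4 / δ * (C * D) * (h⁻¹ * M₀ + h ^ (n + 1) * M₁) * ‖v‖ := by rw [hK]; ring

/-- exponents: for `0 < b < 1`, `b < b'` there are `c`, `n` with `0 < c ≤ 1`, `c ^ (n + 2) = b`,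
`c ^ (n + 1) ≤ b'`. -/
theorem exists_root {b b' : ℝ} (hb : 0 < b) (hb1 : b < 1) (hbb : b < b') :
    ∃ (n : ℕ) (c : ℝ), 0 < c ∧ c ≤ 1 ∧ c ^ (n + 2) = b ∧ c ^ (n + 1) ≤ b' := by
  have h1 : Tendsto (fun n : ℕ => b ^ (1 / ((n : ℝ) + 2))) atTop (𝓝 1) := by
    have h2 : Tendsto (fun n : ℕ => 1 / ((n : ℝ) + 2)) atTop (𝓝 0) := by
      have := (tendsto_natCast_atTop_atTop (R := ℝ)).atTop_add (tendsto_const_nhds (x := (2 : ℝ)))
      exact (tendsto_inv_atTop_zero.comp this).congr fun n => by simp [one_div]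
    have h3 := (Real.continuous_const_rpow hb.ne').tendsto 0
    rw [Real.rpow_zero] at h3
    exact h3.comp h2
  have h4 : ∀ᶠ n : ℕ in atTop, b / b' < b ^ (1 / ((n : ℝ) + 2)) :=
    h1.eventually_const_lt (by rw [div_lt_one (hb.trans hbb)]; exact hbb)
  obtain ⟨n, hn⟩ := h4.exists
  have hc : 0 < b ^ (1 / ((n : ℝ) + 2)) := Real.rpow_pos_of_pos hb _
  have hpow : (b ^ (1 / ((n : ℝ) + 2))) ^ (n + 2) = b := by
    rw [← Real.rpow_natCast, ← Real.rpow_mul hb.le]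
    have : 1 / ((n : ℝ) + 2) * ((n + 2 : ℕ) : ℝ) = 1 := by
      push_cast
      field_simp
    rw [this, Real.rpow_one]
  refine ⟨n, b ^ (1 / ((n : ℝ) + 2)), hc, ?_, hpow, ?_⟩
  · exact Real.rpow_le_one hb.le hb1.le (by positivity)
  · have hb' : 0 < b' := hb.trans hbb
    have h5 : (b ^ (1 / ((n : ℝ) + 2))) ^ (n + 1) * b ^ (1 / ((n : ℝ) + 2)) = b := by
      rw [← pow_succ]; exact hpow
    have h6 : b < b ^ (1 / ((n : ℝ) + 2)) * b' := by
      rwa [div_lt_iff₀ hb'] at hn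
    by_contra hcon
    push Not at hcon
    have : b' * b ^ (1 / ((n : ℝ) + 2)) < (b ^ (1 / ((n : ℝ) + 2))) ^ (n + 1) *
        b ^ (1 / ((n : ℝ) + 2)) := mul_lt_mul_of_pos_right hcon hc
    linarith

/-- the first derivative has (almost) the same rate as the function. -/
theorem rate_fderiv {δ : ℝ} (hδ : 0 < δ) {F : Type} [NormedAddCommGroup F] [NormedSpace ℝ F]
    {f : ℕ → E → F} (hb : ∀ k : ℕ, ∃ C, ∀ n, Bd (ball (0 : E) δ) k (f n) C) {b C₀ : ℝ}
    (b0 : 0 < b) (b1 : b < 1) (h0 : ∀ n, ∀ x ∈ ball (0 : E) δ, ‖f n x‖ ≤ C₀ * b ^ n) {b' : ℝ}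
    (hbb : b < b') : ∃ C, ∀ n, ∀ x ∈ ball (0 : E) δ, ‖fderiv ℝ (f n) x‖ ≤ C * b' ^ n := by
  obtain ⟨m, c, hc0, hc1, hcb, hcb'⟩ := exists_root b0 b1 hbb
  obtain ⟨K, hK0, hK⟩ := exists_interp (E := E) m hδ
  obtain ⟨M, hM⟩ := hb (m + 2)
  have hx0 : (0 : E) ∈ ball (0 : E) δ := mem_ball_self hδ
  have hC₀ : 0 ≤ C₀ := by
    have := (norm_nonneg _).trans (h0 0 0 hx0)
    simpa using this
  have hM0 : 0 ≤ M := (hM 0).nonneg ⟨0, hx0⟩
  refine ⟨K * (C₀ + M), fun n x hx => ?_⟩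
  have h1 := hK (f n) (c ^ n) (C₀ * b ^ n) M (pow_pos hc0 n) (pow_le_one₀ hc0.le hc1) (hM n)
    (h0 n) x hx
  refine h1.trans ?_
  have e1 : (c ^ n)⁻¹ * (C₀ * b ^ n) = C₀ * (c ^ (m + 1)) ^ n := by
    rw [← hcb]
    have hcn : (c ^ n) ≠ 0 := (pow_pos hc0 n).ne'
    field_simp
    ring
  have e2 : (c ^ n) ^ (m + 1) * M = M * (c ^ (m + 1)) ^ n := by
    rw [← pow_mul, ← pow_mul, mul_comm n (m + 1)]; ring
  rw [e1, e2, ← add_mul, ← mul_assoc]
  have h2 : (c ^ (m + 1)) ^ n ≤ b' ^ n := pow_le_pow_left₀ (by positivity) hcb' n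
  exact mul_le_mul_of_nonneg_left h2 (by positivity)

/-- **One rate for all derivatives.** -/
theorem rate_all {δ : ℝ} (hδ : 0 < δ) (k : ℕ) : ∀ {F : Type} [NormedAddCommGroup F]
    [NormedSpace ℝ F] {f : ℕ → E → F}, (∀ k : ℕ, ∃ C, ∀ n, Bd (ball (0 : E) δ) k (f n) C) →
    ∀ {b C₀ : ℝ}, 0 < b → b < 1 → (∀ n, ∀ x ∈ ball (0 : E) δ, ‖f n x‖ ≤ C₀ * b ^ n) →
    ∀ {b' : ℝ}, b < b' → ∃ C, ∀ n, Bd (ball (0 : E) δ) k (f n) (C * b' ^ n) := by
  have hx0 : (0 : E) ∈ ball (0 : E) δ := mem_ball_self hδ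
  induction k with
  | zero =>
    intro F _ _ f hb b C₀ b0 b1 h0 b' hbb
    obtain ⟨C, hC⟩ := hb 0
    have hC₀ : 0 ≤ C₀ := by
      have := (norm_nonneg _).trans (h0 0 0 hx0)
      simpa using this
    exact ⟨C₀, fun n => ⟨(hC n).1, fun x hx => (h0 n x hx).trans
      (mul_le_mul_of_nonneg_left (pow_le_pow_left₀ b0.le hbb.le n) hC₀)⟩⟩
  | succ k ih =>
    intro F _ _ f hb b C₀ b0 b1 h0 b' hbb
    have hC₀ : 0 ≤ C₀ := by
      have := (norm_nonneg _).trans (h0 0 0 hx0)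
      simpa using this
    obtain ⟨b₂, hb₂, hb₂'⟩ := exists_between (lt_min hbb b1)
    have hb₂1 : b₂ < 1 := hb₂'.trans_le (min_le_right _ _)
    have hb₂b' : b₂ < b' := hb₂'.trans_le (min_le_left _ _)
    obtain ⟨C₁, hC₁⟩ := rate_fderiv hδ hb b0 b1 h0 hb₂
    have hb' : ∀ k : ℕ, ∃ C, ∀ n, Bd (ball (0 : E) δ) k (fderiv ℝ (f n)) C := fun j => by
      obtain ⟨C, hC⟩ := hb (j + 1)
      exact ⟨C, fun n => (hC n).fd⟩
    obtain ⟨C₂, hC₂⟩ := ih hb' (b0.trans hb₂) hb₂1 hC₁ hb₂b'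
    obtain ⟨C, hC⟩ := hb 1
    have hb'0 : 0 < b' := b0.trans hbb
    refine ⟨max C₀ C₂, fun n => ⟨(hC n).1, fun x hx => (h0 n x hx).trans ?_, ?_⟩⟩
    · calc C₀ * b ^ n ≤ C₀ * b' ^ n :=
            mul_le_mul_of_nonneg_left (pow_le_pow_left₀ b0.le hbb.le n) hC₀
        _ ≤ max C₀ C₂ * b' ^ n := by gcongr; exact le_max_left _ _
    · refine (hC₂ n).mono ?_
      gcongr
      exact le_max_right _ _

end Vale.Agent.P207.N3.H629
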