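import Vale.Agent.P207.N3.H629.Rate
import Vale.Agent.P207.N3.H391.PF

/-!
# P207, line N3, row P3ELB (B4): the a priori rate of the leaves

For a `Half` with `‖DM(0)‖ < 1` the gradients `σ_n = ∇ S_{Mⁿ y}` tend to `0` exponentially in every
`C^k` of a fixed ball, with one rate for all `k`.
-/

open Set Filter Topology Metric InnerProductSpace
open scoped ContDiff RealInnerProductSpace Gradient

noncomputable section

namespace Vale.Agent.P207.N3.H629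

open P207N3H639

/-- the dual, as a linear isometry -/
def dl : StrongDual ℝ E2 ≃ₗᵢ[ℝ] E2 where
  toFun := (InnerProductSpace.toDual ℝ E2).symm
  map_add' := fun x y => map_add _ x y
  map_smul' := fun c x => by simp
  invFun := InnerProductSpace.toDual ℝ E2
  left_inv := fun x => (InnerProductSpace.toDual ℝ E2).apply_symm_apply x
  right_inv := fun x => (InnerProductSpace.toDual ℝ E2).symm_apply_apply x
  norm_map' := fun x => (InnerProductSpace.toDual ℝ E2).symm.norm_map x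

theorem gradient_eq_dl (f : E2 → ℝ) : ∇ f = fun x => dl (fderiv ℝ f x) := rfl

/-- gradients and `C^k` bounds. -/
theorem bd_gradient {U : Set E2} (hU : IsOpen U) {k : ℕ} {f : E2 → ℝ} {C : ℝ}
    (hf : ContDiffOn ℝ ∞ f U) (h : ∀ j ≤ k + 1, ∀ x ∈ U, ‖iteratedFDeriv ℝ j f x‖ ≤ C) :
    Bd U k (∇ f) C := by
  have h1 : ContDiffOn ℝ ((k : WithTop ℕ∞) + 1) f U := hf.of_le (by exact_mod_cast le_top)
  rw [contDiffOn_succ_iff_fderiv_of_isOpen hU] at h1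
  rw [gradient_eq_dl]
  refine bd_of_iter hU ?_ ?_
  · exact dl.toContinuousLinearEquiv.contDiff.comp_contDiffOn h1.2.2
  · intro j hj x hx
    have e : (fun x => dl (fderiv ℝ f x)) = dl ∘ fderiv ℝ f := rfl
    rw [e, LinearIsometryEquiv.norm_iteratedFDeriv_comp_left, norm_iteratedFDeriv_fderiv]
    exact h (j + 1) (by omega) x hx

section Basics

variable (H : Half)

theorem prod_open : IsOpen (ball (0 : E2) H.r ×ˢ ball (0 : E2) H.r) := isOpen_ball.prod isOpen_ball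

theorem zero_mem : ((0 : E2), (0 : E2)) ∈ ball (0 : E2) H.r ×ˢ ball (0 : E2) H.r :=
  ⟨mem_ball_self H.r_pos, mem_ball_self H.r_pos⟩

theorem a_diff {z : E2 × E2} (hz : z ∈ ball (0 : E2) H.r ×ˢ ball (0 : E2) H.r) :
    HasFDerivAt H.a (fderiv ℝ H.a z) z :=
  ((H.a_smooth.contDiffAt ((prod_open H).mem_nhds hz)).differentiableAt (by simp)).hasFDerivAt

theorem b_diff {z : E2 × E2} (hz : z ∈ ball (0 : E2) H.r ×ˢ ball (0 : E2) H.r) :
    HasFDerivAt H.b (fderiv ℝ H.b z) z :=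
  ((H.b_smooth.contDiffAt ((prod_open H).mem_nhds hz)).differentiableAt (by simp)).hasFDerivAt

/-- `a_p (0, 0) = 0` -/
theorem a_p_zero (v : E2) : fderiv ℝ H.a (0, 0) (0, v) = 0 := by
  have h1 := HasFDerivAt.comp (g := H.a) (f := fun p : E2 => ((0 : E2), p)) (0 : E2)
    (a_diff H (zero_mem H)) (hasFDerivAt_prodMk_right (𝕜 := ℝ) (0 : E2) (0 : E2))
  have h2 : (fun p : E2 => H.a (0, p)) =ᶠ[𝓝 0] fun _ => 0 := by
    filter_upwards [ball_mem_nhds (0 : E2) H.r_pos] with p hp using H.a_zero p hp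
  have h3 : fderiv ℝ (fun p : E2 => H.a (0, p)) 0 = 0 := by
    rw [h2.fderiv_eq]; simp
  have h4 : fderiv ℝ (fun p : E2 => H.a (0, p)) 0 =
      (fderiv ℝ H.a (0, 0)).comp (ContinuousLinearMap.inr ℝ E2 E2) := h1.fderiv
  rw [h3] at h4
  have := congrArg (fun T : E2 →L[ℝ] E2 => T v) h4
  simpa using this.symm

/-- `b_q (0, 0) = 0` -/
theorem b_q_zero (v : E2) : fderiv ℝ H.b (0, 0) (v, 0) = 0 := by
  have h1 := HasFDerivAt.comp (g := H.b) (f := fun q : E2 => (q, (0 : E2))) (0 : E2)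
    (b_diff H (zero_mem H)) (hasFDerivAt_prodMk_left (𝕜 := ℝ) (0 : E2) (0 : E2))
  have h2 : (fun q : E2 => H.b (q, 0)) =ᶠ[𝓝 0] fun _ => 0 := by
    filter_upwards [ball_mem_nhds (0 : E2) H.r_pos] with p hp using H.b_zero p hp
  have h3 : fderiv ℝ (fun q : E2 => H.b (q, 0)) 0 = 0 := by
    rw [h2.fderiv_eq]; simp
  have h4 : fderiv ℝ (fun q : E2 => H.b (q, 0)) 0 =
      (fderiv ℝ H.b (0, 0)).comp (ContinuousLinearMap.inl ℝ E2 E2) := h1.fderiv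
  rw [h3] at h4
  have := congrArg (fun T : E2 →L[ℝ] E2 => T v) h4
  simpa using this.symm

/-- `b_p (0, 0) = DM(0)` -/
theorem b_p_zero (v : E2) : fderiv ℝ H.b (0, 0) (0, v) = fderiv ℝ H.M 0 v := by
  have h1 := HasFDerivAt.comp (g := H.b) (f := fun p : E2 => ((0 : E2), p)) (0 : E2)
    (b_diff H (zero_mem H)) (hasFDerivAt_prodMk_right (𝕜 := ℝ) (0 : E2) (0 : E2))
  have h2 : (fun p : E2 => H.b (0, p)) =ᶠ[𝓝 0] H.M := by
    filter_upwards [ball_mem_nhds (0 : E2) H.r_pos] with p hp using H.b_axis p hp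
  have h4 : fderiv ℝ (fun p : E2 => H.b (0, p)) 0 =
      (fderiv ℝ H.b (0, 0)).comp (ContinuousLinearMap.inr ℝ E2 E2) := h1.fderiv
  rw [← h2.fderiv_eq, h4]
  simp

/-- `a_q (0, 0)` -/
def La : E2 →L[ℝ] E2 := (fderiv ℝ H.a (0, 0)).comp (ContinuousLinearMap.inl ℝ E2 E2)

theorem La_apply (v : E2) : La H v = fderiv ℝ H.a (0, 0) (v, 0) := by simp [La]

/-- `a_q (0, 0) = DN(0)` -/
theorem La_eq : La H = fderiv ℝ H.N 0 := by
  have h1 := HasFDerivAt.comp (g := H.a) (f := fun q : E2 => (q, (0 : E2))) (0 : E2)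
    (a_diff H (zero_mem H)) (hasFDerivAt_prodMk_left (𝕜 := ℝ) (0 : E2) (0 : E2))
  have h2 : (fun q : E2 => H.a (q, 0)) =ᶠ[𝓝 0] H.N := by
    filter_upwards [ball_mem_nhds (0 : E2) H.r_pos] with p hp using H.a_axis p hp
  have h4 : fderiv ℝ (fun q : E2 => H.a (q, 0)) 0 =
      (fderiv ℝ H.a (0, 0)).comp (ContinuousLinearMap.inl ℝ E2 E2) := h1.fderiv
  rw [La, ← h4, h2.fderiv_eq]

/-- `DN(0)ᵀ DM(0) = 1` -/
theorem dual (u v : E2) : ⟪La H u, fderiv ℝ H.M 0 v⟫ = ⟪u, v⟫ := by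
  have h := H.symp (0, 0) (zero_mem H) (u, 0) (0, v)
  simp only [b_q_zero, b_p_zero, ← La_apply] at h
  simpa using h

/-- `DN(0)` is expanding. -/
theorem norm_La (u : E2) : ‖u‖ ≤ ‖fderiv ℝ H.M 0‖ * ‖La H u‖ := by
  rcases eq_or_ne u 0 with rfl | hu
  · simp
  have hu' : 0 < ‖u‖ := norm_pos_iff.2 hu
  have h := dual H u u
  rw [real_inner_self_eq_norm_sq] at h
  have h1 : ‖u‖ ^ 2 ≤ ‖La H u‖ * (‖fderiv ℝ H.M 0‖ * ‖u‖) := by
    rw [← h]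
    refine (real_inner_le_norm _ _).trans ?_
    gcongr
    exact ContinuousLinearMap.le_opNorm _ _
  have h2 : ‖u‖ * ‖u‖ ≤ (‖fderiv ℝ H.M 0‖ * ‖La H u‖) * ‖u‖ := by
    calc ‖u‖ * ‖u‖ = ‖u‖ ^ 2 := by ring
      _ ≤ _ := h1
      _ = _ := by ring
  exact le_of_mul_le_mul_right h2 hu'

theorem norm_M_pos : 0 < ‖fderiv ℝ H.M 0‖ := by
  by_contra hcon
  have h0 : ‖fderiv ℝ H.M 0‖ = 0 := le_antisymm (not_lt.1 hcon) (norm_nonneg _)
  obtain ⟨u, hu⟩ := exists_ne (0 : E2)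
  have := norm_La H u
  rw [h0, zero_mul] at this
  exact hu (norm_le_zero_iff.1 this)

/-- `DN(0)` as a linear equivalence -/
def Le : E2 ≃ₗ[ℝ] E2 := LinearEquiv.ofInjectiveEndo (La H : E2 →ₗ[ℝ] E2) (by
  intro u v huv
  have h : La H (u - v) = 0 := by
    rw [map_sub]; exact sub_eq_zero.2 huv
  have := norm_La H (u - v)
  rw [h, norm_zero, mul_zero] at this
  exact sub_eq_zero.1 (norm_le_zero_iff.1 this))

theorem Le_apply (u : E2) : Le H u = La H u := rfl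

/-- the right inverse of `DN(0)` -/
def Linv {c : NNReal} (hc : ‖fderiv ℝ H.M 0‖ ≤ c) : (La H).NonlinearRightInverse where
  toFun := (Le H).symm
  nnnorm := c
  bound' := fun y => by
    have h := norm_La H ((Le H).symm y)
    rw [← Le_apply, LinearEquiv.apply_symm_apply] at h
    exact h.trans (mul_le_mul_of_nonneg_right hc (norm_nonneg _))
  right_inv' := fun y => by rw [← Le_apply, LinearEquiv.apply_symm_apply]

end Basics

/-! ### estimates near the origin -/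

/-- The radius on which the derivatives of `a`, `b` are close to their values at the origin. -/
theorem exists_radius (H : Half) {η : ℝ} (hη : 0 < η) : ∃ ρ, 0 < ρ ∧ ρ < H.ρ ∧
    ∀ z ∈ ball (0 : E2) ρ ×ˢ ball (0 : E2) ρ, ‖fderiv ℝ H.a z - fderiv ℝ H.a (0, 0)‖ ≤ η ∧
      ‖fderiv ℝ H.b z - fderiv ℝ H.b (0, 0)‖ ≤ η := by
  have ha : ContinuousAt (fderiv ℝ H.a) (0, 0) :=
    ((H.a_smooth.fderiv_of_isOpen (m := 0) (prod_open H) (by simp)).continuousOn).continuousAt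
      ((prod_open H).mem_nhds (zero_mem H))
  have hb : ContinuousAt (fderiv ℝ H.b) (0, 0) :=
    ((H.b_smooth.fderiv_of_isOpen (m := 0) (prod_open H) (by simp)).continuousOn).continuousAt
      ((prod_open H).mem_nhds (zero_mem H))
  obtain ⟨r₁, hr₁, h₁⟩ := Metric.continuousAt_iff.1 ha η hη
  obtain ⟨r₂, hr₂, h₂⟩ := Metric.continuousAt_iff.1 hb η hη
  obtain ⟨ρ, hρ, hρ'⟩ := exists_between (lt_min (lt_min hr₁ hr₂) H.ρ_pos)
  have g1 : ρ < r₁ := hρ'.trans_le ((min_le_left _ _).trans (min_le_left _ _))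
  have g2 : ρ < r₂ := hρ'.trans_le ((min_le_left _ _).trans (min_le_right _ _))
  refine ⟨ρ, hρ, hρ'.trans_le (min_le_right _ _), fun z hz => ?_⟩
  have hz' : ‖z‖ < ρ := by
    rw [Prod.norm_def]
    exact max_lt (mem_ball_zero_iff.1 hz.1) (mem_ball_zero_iff.1 hz.2)
  have hd : dist z ((0 : E2), (0 : E2)) < ρ := by
    rw [show ((0 : E2), (0 : E2)) = (0 : E2 × E2) from rfl, dist_zero_right]; exact hz'
  refine ⟨?_, ?_⟩
  · have := h₁ (hd.trans g1)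
    rw [dist_eq_norm] at this
    exact this.le
  · have := h₂ (hd.trans g2)
    rw [dist_eq_norm] at this
    exact this.le

theorem ball_sub (H : Half) {ρ : ℝ} (hρ : ρ < H.ρ) {z : E2 × E2}
    (hz : z ∈ ball (0 : E2) ρ ×ˢ ball (0 : E2) ρ) : z ∈ ball (0 : E2) H.r ×ˢ ball (0 : E2) H.r :=
  ⟨ball_subset_ball (hρ.le.trans H.ρ_le) hz.1, ball_subset_ball (hρ.le.trans H.ρ_le) hz.2⟩

/-- `|b (q, p)| ≤ (‖DM(0)‖ + η) |p|` -/
theorem norm_b_le (H : Half) {η ρ : ℝ} (hρ : ρ < H.ρ)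
    (h : ∀ z ∈ ball (0 : E2) ρ ×ˢ ball (0 : E2) ρ, ‖fderiv ℝ H.a z - fderiv ℝ H.a (0, 0)‖ ≤ η ∧
      ‖fderiv ℝ H.b z - fderiv ℝ H.b (0, 0)‖ ≤ η) {q p : E2} (hq : q ∈ ball (0 : E2) ρ)
    (hp : p ∈ ball (0 : E2) ρ) : ‖H.b (q, p)‖ ≤ (‖fderiv ℝ H.M 0‖ + η) * ‖p‖ := by
  have hρ0 : 0 < ρ := (norm_nonneg q).trans_lt (mem_ball_zero_iff.1 hq)
  have h1 : ∀ x ∈ ball (0 : E2) ρ, HasFDerivWithinAt (fun p => H.b (q, p))
      ((fderiv ℝ H.b (q, x)).comp (ContinuousLinearMap.inr ℝ E2 E2)) (ball (0 : E2) ρ) x := by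
    intro x hx
    have hz : (q, x) ∈ ball (0 : E2) H.r ×ˢ ball (0 : E2) H.r := ball_sub H hρ ⟨hq, hx⟩
    exact (HasFDerivAt.comp (g := H.b) (f := fun p : E2 => (q, p)) x
      (b_diff H hz) (hasFDerivAt_prodMk_right (𝕜 := ℝ) q x)).hasFDerivWithinAt
  have h2 : ∀ x ∈ ball (0 : E2) ρ,
      ‖(fderiv ℝ H.b (q, x)).comp (ContinuousLinearMap.inr ℝ E2 E2)‖ ≤
        ‖fderiv ℝ H.M 0‖ + η := by
    intro x hx
    have hη : 0 ≤ η := (norm_nonneg _).trans (h (q, x) ⟨hq, hx⟩).2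
    refine ContinuousLinearMap.opNorm_le_bound _ (by positivity) fun v => ?_
    have e : (fderiv ℝ H.b (q, x)).comp (ContinuousLinearMap.inr ℝ E2 E2) v =
        (fderiv ℝ H.b (q, x) - fderiv ℝ H.b (0, 0)) (0, v) + fderiv ℝ H.M 0 v := by
      rw [← b_p_zero]; simp
    rw [e]
    refine (norm_add_le _ _).trans ?_
    have e1 := (fderiv ℝ H.b (q, x) - fderiv ℝ H.b (0, 0)).le_opNorm ((0 : E2), v)
    have e2 : ‖((0 : E2), v)‖ = ‖v‖ := by simp [Prod.norm_def]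
    rw [e2] at e1
    have e3 := (fderiv ℝ H.M 0).le_opNorm v
    have e4 := mul_le_mul_of_nonneg_right (h (q, x) ⟨hq, hx⟩).2 (norm_nonneg v)
    linarith
  have h3 := (convex_ball (0 : E2) ρ).norm_image_sub_le_of_norm_hasFDerivWithin_le h1 h2
    (mem_ball_self hρ0) hp
  have h4 : H.b (q, 0) = 0 := H.b_zero q (ball_subset_ball (hρ.le.trans H.ρ_le) hq)
  simpa [h4] using h3

/-- the map along a leaf is close to `DN(0)` -/
theorem approx_a (H : Half) {η ρ : ℝ} (hρ : ρ < H.ρ)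
    (h : ∀ z ∈ ball (0 : E2) ρ ×ˢ ball (0 : E2) ρ, ‖fderiv ℝ H.a z - fderiv ℝ H.a (0, 0)‖ ≤ η ∧
      ‖fderiv ℝ H.b z - fderiv ℝ H.b (0, 0)‖ ≤ η) {δ : ℝ} (hδ : δ ≤ ρ) {s : E2 → E2}
    (hs : ∀ q ∈ ball (0 : E2) δ, DifferentiableAt ℝ s q)
    (hs0 : ∀ q ∈ ball (0 : E2) δ, ‖s q‖ < ρ) (hs1 : ∀ q ∈ ball (0 : E2) δ, ‖fderiv ℝ s q‖ ≤ 1)
    {η' : NNReal} (hη' : η ≤ η') :
    ApproximatesLinearOn (fun q => H.a (q, s q)) (La H) (ball (0 : E2) δ) η' := by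
  have h1 : ∀ x ∈ ball (0 : E2) δ, HasFDerivWithinAt (fun q => H.a (q, s q))
      ((fderiv ℝ H.a (x, s x)).comp ((ContinuousLinearMap.id ℝ E2).prod (fderiv ℝ s x)))
      (ball (0 : E2) δ) x := by
    intro x hx
    have hz : (x, s x) ∈ ball (0 : E2) ρ ×ˢ ball (0 : E2) ρ :=
      ⟨ball_subset_ball hδ hx, mem_ball_zero_iff.2 (hs0 x hx)⟩
    exact ((a_diff H (ball_sub H hρ hz)).comp x
      ((hasFDerivAt_id x).prodMk (hs x hx).hasFDerivAt)).hasFDerivWithinAt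
  have h2 : ∀ x ∈ ball (0 : E2) δ,
      ‖(fderiv ℝ H.a (x, s x)).comp ((ContinuousLinearMap.id ℝ E2).prod (fderiv ℝ s x)) - La H‖
        ≤ η' := by
    intro x hx
    have hz : (x, s x) ∈ ball (0 : E2) ρ ×ˢ ball (0 : E2) ρ :=
      ⟨ball_subset_ball hδ hx, mem_ball_zero_iff.2 (hs0 x hx)⟩
    refine ContinuousLinearMap.opNorm_le_bound _ η'.2 fun v => ?_
    have e0 : fderiv ℝ H.a (0, 0) (v, fderiv ℝ s x v) = La H v := by
      have : (v, fderiv ℝ s x v) = (v, (0 : E2)) + ((0 : E2), fderiv ℝ s x v) := by simp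
      rw [this, map_add, a_p_zero, add_zero, La_apply]
    have e : ((fderiv ℝ H.a (x, s x)).comp ((ContinuousLinearMap.id ℝ E2).prod (fderiv ℝ s x)) -
        La H) v = (fderiv ℝ H.a (x, s x) - fderiv ℝ H.a (0, 0)) (v, fderiv ℝ s x v) := by
      rw [_root_.sub_apply, _root_.sub_apply, e0]
      simp
    rw [e]
    refine (ContinuousLinearMap.le_opNorm _ _).trans ?_
    have e2 : ‖(v, fderiv ℝ s x v)‖ ≤ ‖v‖ := by
      rw [Prod.norm_def]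
      refine max_le le_rfl ?_
      refine ((fderiv ℝ s x).le_opNorm v).trans ?_
      have := mul_le_mul_of_nonneg_right (hs1 x hx) (norm_nonneg v)
      simpa using this
    exact mul_le_mul ((h _ hz).1.trans hη') e2 (norm_nonneg _) η'.2
  intro x hx y hy
  exact (convex_ball (0 : E2) δ).norm_image_sub_le_of_norm_hasFDerivWithin_le' h1 h2 hy hx

/-- surjectivity along a leaf, without loss of the ball. -/
theorem surj_a (H : Half) {η ρ : ℝ} (hρ : ρ < H.ρ)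
    (h : ∀ z ∈ ball (0 : E2) ρ ×ˢ ball (0 : E2) ρ, ‖fderiv ℝ H.a z - fderiv ℝ H.a (0, 0)‖ ≤ η ∧
      ‖fderiv ℝ H.b z - fderiv ℝ H.b (0, 0)‖ ≤ η) (hη : 1 + η ≤ ‖fderiv ℝ H.M 0‖⁻¹) {δ : ℝ}
    (hδ : δ ≤ ρ) {s : E2 → E2}
    (hs : ∀ q ∈ ball (0 : E2) δ, DifferentiableAt ℝ s q)
    (hs0 : ∀ q ∈ ball (0 : E2) δ, ‖s q‖ < ρ) (hs1 : ∀ q ∈ ball (0 : E2) δ, ‖fderiv ℝ s q‖ ≤ 1) :
    ∀ x ∈ ball (0 : E2) δ, ∃ q ∈ ball (0 : E2) δ, ‖q‖ ≤ ‖x‖ ∧ H.a (q, s q) = x := by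
  intro x hx
  have hρ0 : 0 < ρ := (norm_nonneg x).trans_lt ((mem_ball_zero_iff.1 hx).trans_le hδ)
  have hη0 : 0 ≤ η := (norm_nonneg _).trans (h (0, 0) ⟨mem_ball_self hρ0, mem_ball_self hρ0⟩).1
  set c : NNReal := ⟨‖fderiv ℝ H.M 0‖, norm_nonneg _⟩ with hc
  have hA := approx_a H hρ h hδ hs hs0 hs1 (η' := ⟨η, hη0⟩) le_rfl
  have hx' := mem_ball_zero_iff.1 hx
  have hsub : closedBall (0 : E2) ‖x‖ ⊆ ball (0 : E2) δ := closedBall_subset_ball hx'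
  have hsurj := hA.surjOn_closedBall_of_nonlinearRightInverse (Linv H (c := c) le_rfl)
    (norm_nonneg x) hsub
  have h0 : H.a (0, s 0) = 0 := by
    refine H.a_zero _ ?_
    have : ‖s 0‖ < ρ := hs0 0 (hsub (mem_closedBall_self (norm_nonneg x)))
    exact mem_ball_zero_iff.2 (this.trans (hρ.trans_le H.ρ_le))
  have hxm : x ∈ closedBall (H.a (0, s 0))
      ((((Linv H (c := c) le_rfl).nnnorm : ℝ)⁻¹ - (⟨η, hη0⟩ : NNReal)) * ‖x‖) := by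
    rw [h0, mem_closedBall_zero_iff]
    have e : 1 ≤ ((Linv H (c := c) le_rfl).nnnorm : ℝ)⁻¹ - (⟨η, hη0⟩ : NNReal) := by
      change 1 ≤ ‖fderiv ℝ H.M 0‖⁻¹ - η
      linarith
    nlinarith [norm_nonneg x]
  obtain ⟨q, hq, hqx⟩ := hsurj hxm
  exact ⟨q, hsub hq, mem_closedBall_zero_iff.1 hq, hqx⟩

/-! ### the leaves -/

theorem tube_lt {g : E2 × E2 → ℝ} {r δ η : ℝ} (hr : 0 < r)
    (hc : ContinuousOn g (ball (0 : E2) r ×ˢ ball (0 : E2) r)) (hδ : δ < r) (_hη : 0 < η)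
    (h0 : ∀ q ∈ closedBall (0 : E2) δ, g (0, q) < η) :
    ∃ ε > 0, ∀ y ∈ ball (0 : E2) ε, ∀ q ∈ closedBall (0 : E2) δ, g (y, q) < η := by
  have hopen := hc.isOpen_inter_preimage (isOpen_ball.prod isOpen_ball) (isOpen_Iio (a := η))
  have hsub : ({(0 : E2)} : Set E2) ×ˢ closedBall (0 : E2) δ ⊆
      (ball (0 : E2) r ×ˢ ball (0 : E2) r) ∩ g ⁻¹' Iio η := by
    rintro ⟨y, q⟩ ⟨hy, hq⟩
    rw [mem_singleton_iff] at hy
    have hy' : y = 0 := hy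
    rw [hy']
    exact ⟨⟨mem_ball_self hr, closedBall_subset_ball hδ hq⟩, h0 q hq⟩
  obtain ⟨u, v, hu, hv, hyu, hqv, huv⟩ := generalized_tube_lemma isCompact_singleton
    (isCompact_closedBall (0 : E2) δ) hopen hsub
  obtain ⟨ε, hε, hεu⟩ := Metric.isOpen_iff.1 hu 0 (hyu rfl)
  exact ⟨ε, hε, fun y hy q hq => (huv (mk_mem_prod (hεu hy) (hqv hq))).2⟩

theorem S_small (H : Half) (k : ℕ) {δ : ℝ} (hδ : δ < H.r) {η : ℝ} (hη : 0 < η) :
    ∃ ε > 0, ε < H.r ∧ ∀ y ∈ ball (0 : E2) ε, ∀ q ∈ closedBall (0 : E2) δ,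
      ‖iteratedFDeriv ℝ k (H.S y) q‖ < η := by
  have hc : ContinuousOn (fun z : E2 × E2 => ‖iteratedFDeriv ℝ k (H.S z.1) z.2‖)
      (ball (0 : E2) H.r ×ˢ ball (0 : E2) H.r) := (H.S_cont k).norm
  have hzero : ∀ q ∈ closedBall (0 : E2) δ, ‖iteratedFDeriv ℝ k (H.S 0) q‖ = 0 := by
    intro q hq
    have hq' : q ∈ ball (0 : E2) H.r := closedBall_subset_ball hδ hq
    have e : H.S 0 =ᶠ[𝓝 q] fun _ => (0 : ℝ) := by
      filter_upwards [isOpen_ball.mem_nhds hq'] with q' hq'' using H.S_zero q' hq''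
    have e2 := (e.iteratedFDeriv ℝ k).eq_of_nhds
    rw [e2, iteratedFDeriv_fun_zero, Pi.zero_apply, norm_zero]
  obtain ⟨ε, hε, h⟩ := tube_lt (r := H.r) H.r_pos hc hδ hη
    (fun q hq => (hzero q hq).trans_lt hη)
  obtain ⟨ε', hε', hε''⟩ := exists_between (lt_min hε H.r_pos)
  exact ⟨ε', hε', hε''.trans_le (min_le_right _ _), fun y hy q hq =>
    h y (ball_subset_ball (hε''.trans_le (min_le_left _ _)).le hy) q hq⟩

theorem S_bdd (H : Half) (k : ℕ) {ε δ : ℝ} (hε : ε < H.r) (hδ : δ < H.r) :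
    ∃ C, ∀ y ∈ closedBall (0 : E2) ε, ∀ q ∈ closedBall (0 : E2) δ,
      ∀ j ≤ k, ‖iteratedFDeriv ℝ j (H.S y) q‖ ≤ C := by
  have h1 : ∀ j : ℕ, ∃ C, ∀ y ∈ closedBall (0 : E2) ε, ∀ q ∈ closedBall (0 : E2) δ,
      ‖iteratedFDeriv ℝ j (H.S y) q‖ ≤ C := by
    intro j
    have hsub : closedBall (0 : E2) ε ×ˢ closedBall (0 : E2) δ ⊆
        ball (0 : E2) H.r ×ˢ ball (0 : E2) H.r :=
      prod_mono (closedBall_subset_ball hε) (closedBall_subset_ball hδ)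
    obtain ⟨C, hC⟩ := ((isCompact_closedBall (0 : E2) ε).prod
      (isCompact_closedBall (0 : E2) δ)).exists_bound_of_continuousOn ((H.S_cont j).mono hsub)
    exact ⟨C, fun y hy q hq => hC (y, q) ⟨hy, hq⟩⟩
  choose C hC using h1
  refine ⟨∑ j ∈ Finset.range (k + 1), |C j|, fun y hy q hq j hj => ?_⟩
  refine (hC j y hy q hq).trans ((le_abs_self _).trans ?_)
  exact Finset.single_le_sum (f := fun j => |C j|) (fun i _ => abs_nonneg _)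
    (Finset.mem_range.2 (by omega))

/-- one step of the leaf recursion, in the form `σ_{n+1} (x) = b (q, σ_n (q))`, `x = a (q, σ_n q)`,
`|q| ≤ |x|`. -/
theorem exists_back (H : Half) {η ρ : ℝ} (hρ : ρ < H.ρ)
    (h : ∀ z ∈ ball (0 : E2) ρ ×ˢ ball (0 : E2) ρ, ‖fderiv ℝ H.a z - fderiv ℝ H.a (0, 0)‖ ≤ η ∧
      ‖fderiv ℝ H.b z - fderiv ℝ H.b (0, 0)‖ ≤ η) (hη : 1 + η ≤ ‖fderiv ℝ H.M 0‖⁻¹) {δ : ℝ}
    (hδ : δ ≤ ρ) {y : E2} (hy : y ∈ ball (0 : E2) H.ρ)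
    (hs0 : ∀ q ∈ ball (0 : E2) δ, ‖∇ (H.S y) q‖ < ρ)
    (hs1 : ∀ q ∈ ball (0 : E2) δ, ‖fderiv ℝ (∇ (H.S y)) q‖ ≤ 1) :
    ∀ x ∈ ball (0 : E2) δ, ∃ q ∈ ball (0 : E2) δ, ‖q‖ ≤ ‖x‖ ∧ H.a (q, ∇ (H.S y) q) = x ∧
      ∇ (H.S (H.M y)) x = H.b (q, ∇ (H.S y) q) := by
  intro x hx
  have hδr : ball (0 : E2) δ ⊆ ball (0 : E2) H.r :=
    ball_subset_ball (hδ.trans (hρ.le.trans H.ρ_le))
  have hd : ∀ q ∈ ball (0 : E2) δ, DifferentiableAt ℝ (∇ (H.S y)) q := by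
    intro q hq
    have hS := (H.S_smooth y (ball_subset_ball H.ρ_le hy)).contDiffAt
      (isOpen_ball.mem_nhds (hδr hq))
    have h1 : DifferentiableAt ℝ (fderiv ℝ (H.S y)) q :=
      (hS.fderiv_right (m := ∞) (by simp)).differentiableAt (by simp)
    rw [gradient_eq_dl]
    exact dl.toContinuousLinearEquiv.differentiableAt.comp q h1
  obtain ⟨q, hq, hqx, hax⟩ := surj_a H hρ h hη hδ hd hs0 hs1 x hx
  refine ⟨q, hq, hqx, hax, ?_⟩
  have hqρ : q ∈ ball (0 : E2) H.ρ := ball_subset_ball (hδ.trans hρ.le) hq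
  have := H.S_inv y hy q hqρ
  rwa [hax] at this

/-- the orbit `Mⁿ y`. -/
theorem M_iter (H : Half) {η ρ : ℝ} (hρ : ρ < H.ρ)
    (h : ∀ z ∈ ball (0 : E2) ρ ×ˢ ball (0 : E2) ρ, ‖fderiv ℝ H.a z - fderiv ℝ H.a (0, 0)‖ ≤ η ∧
      ‖fderiv ℝ H.b z - fderiv ℝ H.b (0, 0)‖ ≤ η) {κ : ℝ} (hκ : ‖fderiv ℝ H.M 0‖ + η ≤ κ)
    (hκ1 : κ < 1) {y : E2} (hy : y ∈ ball (0 : E2) ρ) (n : ℕ) :
    H.M^[n] y ∈ ball (0 : E2) ρ ∧ ‖H.M^[n] y‖ ≤ κ ^ n * ‖y‖ := by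
  have hρ0 : 0 < ρ := (norm_nonneg y).trans_lt (mem_ball_zero_iff.1 hy)
  have hη0 : 0 ≤ η := (norm_nonneg _).trans (h (0, 0) ⟨mem_ball_self hρ0, mem_ball_self hρ0⟩).1
  have hκ0 : 0 ≤ κ := by linarith [norm_nonneg (fderiv ℝ H.M 0)]
  induction n with
  | zero => exact ⟨hy, by simp⟩
  | succ n ih =>
    rw [Function.iterate_succ_apply']
    have h1 : ‖H.M (H.M^[n] y)‖ ≤ κ * ‖H.M^[n] y‖ := by
      have e : H.M (H.M^[n] y) = H.b (0, H.M^[n] y) :=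
        (H.b_axis _ (ball_subset_ball (hρ.le.trans H.ρ_le) ih.1)).symm
      rw [e]
      refine (norm_b_le H hρ h (mem_ball_self hρ0) ih.1).trans ?_
      gcongr
    refine ⟨?_, ?_⟩
    · rw [mem_ball_zero_iff]
      have := mem_ball_zero_iff.1 ih.1
      nlinarith [norm_nonneg (H.M^[n] y)]
    · refine h1.trans ?_
      rw [pow_succ]
      nlinarith [ih.2, norm_nonneg y]

/-- **The a priori rate.** -/
theorem apriori (H : Half) (hM : ‖fderiv ℝ H.M 0‖ < 1) {b : ℝ} (hb : ‖fderiv ℝ H.M 0‖ < b) :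
    ∃ δ₀ > 0, δ₀ < H.ρ ∧ ∀ δ, 0 < δ → δ ≤ δ₀ → ∃ ε > 0, ε < H.ρ ∧ ∀ y ∈ ball (0 : E2) ε,
      (∀ n, H.M^[n] y ∈ ball (0 : E2) ε) ∧ (∀ n, ‖H.M^[n] y‖ ≤ b ^ n * ‖y‖) ∧
      (∀ n, ∀ x ∈ ball (0 : E2) δ, ∃ q ∈ ball (0 : E2) δ, ‖q‖ ≤ ‖x‖ ∧
        H.a (q, ∇ (H.S (H.M^[n] y)) q) = x ∧
        ∇ (H.S (H.M^[n + 1] y)) x = H.b (q, ∇ (H.S (H.M^[n] y)) q)) ∧
      ∀ k : ℕ, ∃ C, ∀ n, Bd (ball (0 : E2) δ) k (∇ (H.S (H.M^[n] y))) (C * b ^ n) := by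
  set m : ℝ := ‖fderiv ℝ H.M 0‖ with hm
  have hm0 : 0 < m := norm_M_pos H
  obtain ⟨κ, hmκ, hκ⟩ := exists_between (lt_min hM hb)
  have hκ1 : κ < 1 := hκ.trans_le (min_le_left _ _)
  have hκb : κ < b := hκ.trans_le (min_le_right _ _)
  have hκ0 : 0 < κ := hm0.trans hmκ
  have hinv : 1 < m⁻¹ := (one_lt_inv₀ hm0).2 hM
  obtain ⟨η, hη0, hη⟩ := exists_between (lt_min (sub_pos.2 hmκ) (sub_pos.2 hinv))
  have hη1 : m + η ≤ κ := by have := hη.trans_le (min_le_left _ _); linarith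
  have hη2 : 1 + η ≤ m⁻¹ := by have := hη.trans_le (min_le_right _ _); linarith
  obtain ⟨ρ, hρ0, hρ, hρh⟩ := exists_radius H hη0
  refine ⟨ρ, hρ0, hρ, fun δ hδ0 hδ => ?_⟩
  have hδr : δ < H.r := hδ.trans_lt (hρ.trans_le H.ρ_le)
  obtain ⟨ε₁, hε₁, hε₁r, h₁⟩ := S_small H 1 hδr hρ0
  obtain ⟨ε₂, hε₂, hε₂r, h₂⟩ := S_small H 2 hδr one_pos
  set ε : ℝ := min ρ (min ε₁ ε₂) with hε
  have hε0 : 0 < ε := lt_min hρ0 (lt_min hε₁ hε₂)
  have hερ : ε ≤ ρ := min_le_left _ _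
  have hε1 : ε ≤ ε₁ := (min_le_right _ _).trans (min_le_left _ _)
  have hε2 : ε ≤ ε₂ := (min_le_right _ _).trans (min_le_right _ _)
  refine ⟨ε, hε0, hερ.trans_lt hρ, fun y hy => ?_⟩
  have hy' : y ∈ ball (0 : E2) ρ := ball_subset_ball hερ hy
  have hit := fun n => M_iter H hρ hρh hη1 hκ1 hy' n
  have hitε : ∀ n, H.M^[n] y ∈ ball (0 : E2) ε := by
    intro n
    rw [mem_ball_zero_iff]
    have h1 := (hit n).2
    have h2 : κ ^ n ≤ 1 := pow_le_one₀ hκ0.le hκ1.le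
    have h3 := mem_ball_zero_iff.1 hy
    nlinarith [norm_nonneg y]
  have hsm : ∀ z ∈ ball (0 : E2) ε, (∀ q ∈ ball (0 : E2) δ, ‖∇ (H.S z) q‖ < ρ) ∧
      (∀ q ∈ ball (0 : E2) δ, ‖fderiv ℝ (∇ (H.S z)) q‖ ≤ 1) := by
    intro z hz
    refine ⟨fun q hq => ?_, fun q hq => ?_⟩
    · have := h₁ z (ball_subset_ball hε1 hz) q (ball_subset_closedBall hq)
      rw [gradient_eq_dl]
      show ‖dl (fderiv ℝ (H.S z) q)‖ < ρ
      rw [dl.norm_map, ← norm_iteratedFDeriv_one]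
      exact this
    · have := h₂ z (ball_subset_ball hε2 hz) q (ball_subset_closedBall hq)
      have e : (fun x => dl (fderiv ℝ (H.S z) x)) = dl ∘ fderiv ℝ (H.S z) := rfl
      rw [gradient_eq_dl, ← norm_iteratedFDeriv_one, e,
        LinearIsometryEquiv.norm_iteratedFDeriv_comp_left, norm_iteratedFDeriv_fderiv]
      exact this.le
  have hback : ∀ n, ∀ x ∈ ball (0 : E2) δ, ∃ q ∈ ball (0 : E2) δ, ‖q‖ ≤ ‖x‖ ∧
        H.a (q, ∇ (H.S (H.M^[n] y)) q) = x ∧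
        ∇ (H.S (H.M^[n + 1] y)) x = H.b (q, ∇ (H.S (H.M^[n] y)) q) := by
    intro n x hx
    have hz := hitε n
    rw [Function.iterate_succ_apply']
    exact exists_back H hρ hρh hη2 hδ (ball_subset_ball (hερ.trans hρ.le) hz) (hsm _ hz).1
      (hsm _ hz).2 x hx
  have hsup : ∀ n, ∀ x ∈ ball (0 : E2) δ, ‖∇ (H.S (H.M^[n] y)) x‖ ≤ ρ * κ ^ n := by
    intro n
    induction n with
    | zero => intro x hx; simpa using ((hsm _ (hitε 0)).1 x hx).le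
    | succ n ih =>
      intro x hx
      obtain ⟨q, hq, -, -, hqb⟩ := hback n x hx
      rw [hqb]
      have h3 := norm_b_le H hρ hρh (ball_subset_ball hδ hq)
        (mem_ball_zero_iff.2 ((hsm _ (hitε n)).1 q hq))
      refine h3.trans ?_
      have h4 := ih q hq
      calc (m + η) * ‖∇ (H.S (H.M^[n] y)) q‖ ≤ κ * (ρ * κ ^ n) := by gcongr
        _ = ρ * κ ^ (n + 1) := by ring
  have hbdd : ∀ k : ℕ, ∃ C, ∀ n, Bd (ball (0 : E2) δ) k (∇ (H.S (H.M^[n] y))) C := by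
    intro k
    obtain ⟨C, hC⟩ := S_bdd H (k + 1) (hερ.trans_lt (hρ.trans_le H.ρ_le)) hδr
    refine ⟨C, fun n => bd_gradient isOpen_ball ?_ ?_⟩
    · exact (H.S_smooth _ (ball_subset_ball (hερ.trans (hρ.le.trans H.ρ_le)) (hitε n))).mono
        (ball_subset_ball hδr.le)
    · intro j hj x hx
      exact hC _ (ball_subset_closedBall (hitε n)) x (ball_subset_closedBall hx) j hj
  refine ⟨hitε, fun n => (hit n).2.trans ?_, hback, fun k => ?_⟩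
  · exact mul_le_mul_of_nonneg_right (pow_le_pow_left₀ hκ0.le hκb.le n) (norm_nonneg _)
  · exact rate_all hδ0 k hbdd hκ0 hκ1 hsup hκb

end Vale.Agent.P207.N3.H629
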