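import Vale.Agent.P207.N3.H629.Rate

/-!
# P207, line N3, row P3ELB (B1): iterates of a contraction

The iterates of a smooth contraction of a ball are bounded in every `C^k`, and tend to `0` in every
`C^k` with every rate bigger than the norm of the derivative at the fixed point.
-/

set_option maxSynthPendingDepth 3

open Set Filter Topology Metric

namespace Vale.Agent.P207.N3.H629

open P207N3H639

variable {E : Type} [NormedAddCommGroup E] [NormedSpace ℝ E]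

/-- A linear recursion `G_{l+1} = A_l G_l + r_l` with `|A_l| ≤ κ < 1` and everything bounded in
`C^k` has solutions which are bounded in `C^k`. -/
theorem lin_rec {U : Set E} (hU : IsOpen U) (hne : U.Nonempty) {κ : ℝ} (hκ0 : 0 ≤ κ) (hκ : κ < 1)
    (k : ℕ) : ∀ {F : Type} [NormedAddCommGroup F] [NormedSpace ℝ F] {G r : ℕ → E → F}
    {A : ℕ → E → F →L[ℝ] F} {CA Cr C₀ : ℝ}, (∀ l, Bd U k (A l) CA) →
    (∀ l, ∀ x ∈ U, ‖A l x‖ ≤ κ) → (∀ l, Bd U k (r l) Cr) → Bd U k (G 0) C₀ →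
    (∀ l, EqOn (G (l + 1)) (fun x => A l x (G l x) + r l x) U) →
    ∃ C, 0 ≤ C ∧ ∀ l, Bd U k (G l) C := by
  -- the sup norm
  have sup : ∀ {F : Type} [NormedAddCommGroup F] [NormedSpace ℝ F] {G r : ℕ → E → F}
      {A : ℕ → E → F →L[ℝ] F} {Cr C₀ : ℝ}, (∀ l, ∀ x ∈ U, ‖A l x‖ ≤ κ) →
      (∀ l, ∀ x ∈ U, ‖r l x‖ ≤ Cr) → (∀ x ∈ U, ‖G 0 x‖ ≤ C₀) →
      (∀ l, EqOn (G (l + 1)) (fun x => A l x (G l x) + r l x) U) →
      ∃ C, 0 ≤ C ∧ ∀ l, ∀ x ∈ U, ‖G l x‖ ≤ C := by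
    intro F _ _ G r A Cr C₀ hA hr h0 hrec
    have h1κ : 0 < 1 - κ := by linarith
    refine ⟨max (max C₀ (Cr / (1 - κ))) 0, le_max_right _ _, fun l => ?_⟩
    induction l with
    | zero => intro x hx; exact (h0 x hx).trans ((le_max_left _ _).trans (le_max_left _ _))
    | succ l ih =>
      intro x hx
      set C := max (max C₀ (Cr / (1 - κ))) 0 with hC
      rw [hrec l hx]
      have h2 : ‖A l x (G l x)‖ ≤ κ * C := by
        refine ((A l x).le_opNorm _).trans ?_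
        exact mul_le_mul (hA l x hx) (ih x hx) (norm_nonneg _) hκ0
      have h3 : Cr ≤ (1 - κ) * C := by
        have : Cr / (1 - κ) ≤ C := (le_max_right _ _).trans (le_max_left _ _)
        rw [div_le_iff₀ h1κ] at this
        linarith
      refine (norm_add_le _ _).trans ?_
      have := hr l x hx
      linarith
  induction k with
  | zero =>
    intro F _ _ G r A CA Cr C₀ hA hAκ hr h0 hrec
    obtain ⟨C, hC, h⟩ := sup hAκ (fun l x hx => (hr l).norm_le hx) (fun x hx => h0.norm_le hx) hrec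
    refine ⟨C, hC, fun l => ⟨?_, h l⟩⟩
    induction l with
    | zero => exact h0.continuousOn
    | succ l ih =>
      refine ContinuousOn.congr ?_ (hrec l)
      exact ((hA l).continuousOn.clm_apply ih).add (hr l).continuousOn
  | succ k ih =>
    intro F _ _ G r A CA Cr C₀ hA hAκ hr h0 hrec
    obtain ⟨C, hC, h⟩ := sup hAκ (fun l x hx => (hr l).norm_le hx) (fun x hx => h0.norm_le hx) hrec
    have hCA : 0 ≤ CA := (hA 0).nonneg hne
    have hCr : 0 ≤ Cr := (hr 0).nonneg hne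
    -- differentiability
    have hd : ∀ l, ∀ x ∈ U, DifferentiableAt ℝ (G l) x := by
      intro l
      induction l with
      | zero => exact h0.1
      | succ l ihl =>
        intro x hx
        have e : G (l + 1) =ᶠ[𝓝 x] fun x => A l x (G l x) + r l x :=
          (hrec l).eventuallyEq_of_mem (hU.mem_nhds hx)
        exact ((((hA l).1 x hx).clm_apply (ihl x hx)).add ((hr l).1 x hx)).congr_of_eventuallyEq e
    -- `C^k` bounds of `G`
    obtain ⟨C₁, hC₁, h1⟩ := ih (fun l => (hA l).of_succ) hAκ (fun l => (hr l).of_succ)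
      h0.of_succ hrec
    -- the recursion of the derivative
    set A' : ℕ → E → (E →L[ℝ] F) →L[ℝ] (E →L[ℝ] F) :=
      fun l x => ContinuousLinearMap.compL ℝ E F F (A l x) with hA'
    set r' : ℕ → E → (E →L[ℝ] F) :=
      fun l x => (fderiv ℝ (A l) x).flip (G l x) + fderiv ℝ (r l) x with hr'
    have hA'b : ∀ l, Bd U k (A' l) (‖ContinuousLinearMap.compL ℝ E F F‖ * CA) := fun l =>
      ((hA l).of_succ).clm hU (ContinuousLinearMap.compL ℝ E F F)
    have hA'κ : ∀ l, ∀ x ∈ U, ‖A' l x‖ ≤ κ := by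
      intro l x hx
      refine ((ContinuousLinearMap.compL ℝ E F F).le_opNorm _).trans ?_
      have e1 := ContinuousLinearMap.norm_compL_le ℝ E F F
      have e2 := hAκ l x hx
      calc ‖ContinuousLinearMap.compL ℝ E F F‖ * ‖A l x‖ ≤ 1 * κ := by gcongr
        _ = κ := one_mul κ
    obtain ⟨C₂, hC₂⟩ : ∃ C₂, ∀ l, Bd U k (r' l) C₂ := by
      have h2 : ∀ l, Bd U k (fun x => (fderiv ℝ (A l) x).flip (G l x))
          (2 ^ k * (‖((ContinuousLinearMap.flipₗᵢ ℝ E F F).toContinuousLinearEquiv :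
            (E →L[ℝ] F →L[ℝ] F) →L[ℝ] (F →L[ℝ] E →L[ℝ] F))‖ * CA) * C₁) := by
        intro l
        refine Bd.apply hU (by positivity) hC₁ ?_ (h1 l)
        exact ((hA l).2.2).clm hU ((ContinuousLinearMap.flipₗᵢ ℝ E F F).toContinuousLinearEquiv :
            (E →L[ℝ] F →L[ℝ] F) →L[ℝ] (F →L[ℝ] E →L[ℝ] F))
      exact ⟨_, fun l => (h2 l).add hU (hr l).2.2⟩
    have hrec' : ∀ l, EqOn (fderiv ℝ (G (l + 1)))
        (fun x => A' l x (fderiv ℝ (G l) x) + r' l x) U := by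
      intro l x hx
      have e : G (l + 1) =ᶠ[𝓝 x] fun x => A l x (G l x) + r l x :=
        (hrec l).eventuallyEq_of_mem (hU.mem_nhds hx)
      rw [e.fderiv_eq]
      have e1 := (((hA l).1 x hx).hasFDerivAt.clm_apply (hd l x hx).hasFDerivAt).add
        ((hr l).1 x hx).hasFDerivAt
      refine e1.fderiv.trans ?_
      simp only [hA', hr']
      rw [← add_assoc]
      rfl
    obtain ⟨C₃, hC₃, h3⟩ := ih (G := fun l => fderiv ℝ (G l)) hA'b hA'κ hC₂ h0.2.2 hrec'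
    exact ⟨max C C₃, le_max_of_le_left hC, fun l => ⟨hd l, fun x hx => (h l x hx).trans
      (le_max_left _ _), (h3 l).mono (le_max_right _ _)⟩⟩

/-- The iterates of a contraction are bounded in every `C^k`. -/
theorem iter_bdd {U : Set E} (hU : IsOpen U) (hne : U.Nonempty) {R : ℝ} (hR : ∀ x ∈ U, ‖x‖ ≤ R)
    {K : E → E} (hm : MapsTo K U U) (hK : ∀ k : ℕ, ∃ C, Bd U k K C) {κ : ℝ} (hκ0 : 0 ≤ κ)
    (hκ : κ < 1) (hd : ∀ x ∈ U, ‖fderiv ℝ K x‖ ≤ κ) (k : ℕ) :
    ∃ C, 0 ≤ C ∧ ∀ l, Bd U k (K^[l]) C := by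
  have hml : ∀ l, MapsTo (K^[l]) U U := fun l => hm.iterate l
  induction k with
  | zero =>
    obtain ⟨C, hC⟩ := hK 0
    have hR0 : 0 ≤ R := let ⟨x, hx⟩ := hne; (norm_nonneg x).trans (hR x hx)
    refine ⟨R, hR0, fun l => ⟨?_, fun x hx => hR _ (hml l hx)⟩⟩
    exact (hC.1.iterate hm l)
  | succ k ih =>
    obtain ⟨C, hC0, hC⟩ := ih
    obtain ⟨D, hD⟩ := hK (k + 1)
    have hR0 : 0 ≤ R := let ⟨x, hx⟩ := hne; (norm_nonneg x).trans (hR x hx)
    have hdl : ∀ l, ∀ x ∈ U, DifferentiableAt ℝ (K^[l]) x := by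
      intro l
      induction l with
      | zero => intro x _; exact differentiableAt_id
      | succ l ihl =>
        intro x hx
        rw [Function.iterate_succ']
        exact (hD.1 _ (hml l hx)).comp x (ihl x hx)
    set A : ℕ → E → (E →L[ℝ] E) →L[ℝ] (E →L[ℝ] E) :=
      fun l x => ContinuousLinearMap.compL ℝ E E E (fderiv ℝ K (K^[l] x)) with hA
    have hAb : ∀ l, Bd U k (A l) (‖ContinuousLinearMap.compL ℝ E E E‖ * (cc k C * D)) := fun l =>
      (Bd.comp hU hne (hml l) hD.2.2 (hC l)).clm hU (ContinuousLinearMap.compL ℝ E E E)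
    have hAκ : ∀ l, ∀ x ∈ U, ‖A l x‖ ≤ κ := by
      intro l x hx
      refine ((ContinuousLinearMap.compL ℝ E E E).le_opNorm _).trans ?_
      have e1 := ContinuousLinearMap.norm_compL_le ℝ E E E
      have e2 := hd _ (hml l hx)
      calc ‖ContinuousLinearMap.compL ℝ E E E‖ * ‖fderiv ℝ K (K^[l] x)‖ ≤ 1 * κ := by gcongr
        _ = κ := one_mul κ
    have h0 : Bd U k (fderiv ℝ (K^[0])) ‖ContinuousLinearMap.id ℝ E‖ := by
      have : fderiv ℝ (K^[0]) = fun _ => ContinuousLinearMap.id ℝ E := by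
        funext x; exact fderiv_id
      rw [this]
      exact Bd.const _
    have hrec : ∀ l, EqOn (fderiv ℝ (K^[l + 1]))
        (fun x => A l x (fderiv ℝ (K^[l]) x) + (fun _ _ => 0 : ℕ → E → (E →L[ℝ] E)) l x) U := by
      intro l x hx
      rw [Function.iterate_succ']
      have := ((hD.1 _ (hml l hx)).hasFDerivAt.comp x (hdl l x hx).hasFDerivAt).fderiv
      rw [this]
      simp [hA]
    obtain ⟨C', hC', h'⟩ := lin_rec hU hne hκ0 hκ k (G := fun l => fderiv ℝ (K^[l]))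
      (r := fun _ _ => 0) hAb hAκ (fun l => Bd.zero (le_refl 0)) h0 hrec
    exact ⟨max R C', le_max_of_le_left hR0, fun l => ⟨hdl l, fun x hx => (hR _ (hml l hx)).trans
      (le_max_left _ _), (h' l).mono (le_max_right _ _)⟩⟩

/-- Rate, first form: `‖DK‖ ≤ κ` on the ball. -/
theorem iter_rate₁ {δ : ℝ} (hδ : 0 < δ) {K : E → E} (h0 : K 0 = 0)
    (hK : ∀ k : ℕ, ∃ C, Bd (ball (0 : E) δ) k K C) {κ : ℝ} (hκ0 : 0 < κ) (hκ : κ < 1)
    (hd : ∀ x ∈ ball (0 : E) δ, ‖fderiv ℝ K x‖ ≤ κ) {b : ℝ} (hb : κ < b) (k : ℕ) :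
    ∃ C, ∀ l, Bd (ball (0 : E) δ) k (K^[l]) (C * b ^ l) := by
  have hne : (ball (0 : E) δ).Nonempty := ⟨0, mem_ball_self hδ⟩
  obtain ⟨C1, hC1⟩ := hK 1
  have hc : ∀ x ∈ ball (0 : E) δ, ‖K x‖ ≤ κ * ‖x‖ := by
    intro x hx
    have := (convex_ball (0 : E) δ).norm_image_sub_le_of_norm_fderiv_le (𝕜 := ℝ)
      (fun y hy => hC1.1 y hy) hd (mem_ball_self hδ) hx
    simpa [h0] using this
  have hm : MapsTo K (ball (0 : E) δ) (ball (0 : E) δ) := by
    intro x hx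
    rw [mem_ball_zero_iff] at hx ⊢
    have := hc x (mem_ball_zero_iff.2 hx)
    nlinarith [norm_nonneg x]
  have hml : ∀ l, MapsTo (K^[l]) (ball (0 : E) δ) (ball (0 : E) δ) := fun l => hm.iterate l
  have hsup : ∀ l, ∀ x ∈ ball (0 : E) δ, ‖K^[l] x‖ ≤ δ * κ ^ l := by
    intro l
    induction l with
    | zero => intro x hx; simpa using (mem_ball_zero_iff.1 hx).le
    | succ l ih =>
      intro x hx
      rw [Function.iterate_succ_apply']
      refine (hc _ (hml l hx)).trans ?_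
      calc κ * ‖K^[l] x‖ ≤ κ * (δ * κ ^ l) := by gcongr; exact ih x hx
        _ = δ * κ ^ (l + 1) := by ring
  exact rate_all hδ k (fun k => (iter_bdd isOpen_ball hne
    (fun x hx => (mem_ball_zero_iff.1 hx).le) hm hK hκ0.le hκ hd k).imp fun C hC => hC.2)
    hκ0 hκ hsup hb

/-- **Rate of the iterates**: any rate bigger than the norm of the derivative at the origin. -/
theorem iter_rate {δ : ℝ} (hδ : 0 < δ) {K : E → E} (h0 : K 0 = 0)
    (hK : ∀ k : ℕ, ∃ C, Bd (ball (0 : E) δ) k K C) {κ : ℝ} (hκ0 : 0 < κ) (hκ : κ < 1)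
    (hd : ∀ x ∈ ball (0 : E) δ, ‖fderiv ℝ K x‖ ≤ κ) {b : ℝ} (hb : ‖fderiv ℝ K 0‖ < b) (k : ℕ) :
    ∃ C, 0 ≤ C ∧ ∀ l, Bd (ball (0 : E) δ) k (K^[l]) (C * b ^ l) := by
  have hne : (ball (0 : E) δ).Nonempty := ⟨0, mem_ball_self hδ⟩
  have hb0 : 0 < b := (norm_nonneg _).trans_lt hb
  rcases lt_or_ge κ b with h | h
  · obtain ⟨C, hC⟩ := iter_rate₁ hδ h0 hK hκ0 hκ hd h k
    exact ⟨|C|, abs_nonneg _, fun l => (hC l).mono (by gcongr; exact le_abs_self C)⟩
  have hb1 : b < 1 := h.trans_lt hκ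
  obtain ⟨C1, hC1⟩ := hK 1
  have hc : ∀ x ∈ ball (0 : E) δ, ‖K x‖ ≤ κ * ‖x‖ := by
    intro x hx
    have := (convex_ball (0 : E) δ).norm_image_sub_le_of_norm_fderiv_le (𝕜 := ℝ)
      (fun y hy => hC1.1 y hy) hd (mem_ball_self hδ) hx
    simpa [h0] using this
  have hm : MapsTo K (ball (0 : E) δ) (ball (0 : E) δ) := by
    intro x hx
    rw [mem_ball_zero_iff] at hx ⊢
    have := hc x (mem_ball_zero_iff.2 hx)
    nlinarith [norm_nonneg x]
  have hml : ∀ l, MapsTo (K^[l]) (ball (0 : E) δ) (ball (0 : E) δ) := fun l => hm.iterate l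
  have hsup : ∀ l, ∀ x ∈ ball (0 : E) δ, ‖K^[l] x‖ ≤ δ * κ ^ l := by
    intro l
    induction l with
    | zero => intro x hx; simpa using (mem_ball_zero_iff.1 hx).le
    | succ l ih =>
      intro x hx
      rw [Function.iterate_succ_apply']
      refine (hc _ (hml l hx)).trans ?_
      calc κ * ‖K^[l] x‖ ≤ κ * (δ * κ ^ l) := by gcongr; exact ih x hx
        _ = δ * κ ^ (l + 1) := by ring
  -- a smaller ball on which the derivative is `< b`
  obtain ⟨κ₁, hκ₁, hκ₁b⟩ := exists_between hb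
  have hκ₁0 : 0 ≤ κ₁ := (norm_nonneg _).trans hκ₁.le
  obtain ⟨κ₂, hκ₂, hκ₂b⟩ := exists_between hκ₁b
  have hκ₂0 : 0 < κ₂ := hκ₁0.trans_lt hκ₂
  have hcont : ContinuousAt (fun x => ‖fderiv ℝ K x‖) 0 :=
    (hC1.2.2.1.continuousAt (isOpen_ball.mem_nhds (mem_ball_self hδ))).norm
  obtain ⟨δ', hδ', hδ'd⟩ := Metric.eventually_nhds_iff.1
    (hcont.eventually_lt_const (hκ₁.trans hκ₂))
  set δ₁ := min δ δ' with hδ₁
  have hδ₁0 : 0 < δ₁ := lt_min hδ hδ'
  have hsub : ball (0 : E) δ₁ ⊆ ball (0 : E) δ := ball_subset_ball (min_le_left _ _)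
  have hd₁ : ∀ x ∈ ball (0 : E) δ₁, ‖fderiv ℝ K x‖ ≤ κ₂ := by
    intro x hx
    have hx' : dist x 0 < δ' := (mem_ball.1 hx).trans_le (min_le_right _ _)
    exact (hδ'd hx').le
  obtain ⟨C₁, hC₁⟩ := iter_rate₁ hδ₁0 h0 (fun j => (hK j).imp fun C hC => hC.mono_set hsub)
    hκ₂0 (hκ₂b.trans hb1) hd₁ hκ₂b k
  -- after `m` steps the ball is mapped to the smaller one
  obtain ⟨m, hm1⟩ : ∃ m : ℕ, δ * κ ^ m < δ₁ := by
    have := ((tendsto_pow_atTop_nhds_zero_of_lt_one hκ0.le hκ).const_mul δ)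
    rw [mul_zero] at this
    exact (this.eventually_lt_const hδ₁0).exists
  have hmm : MapsTo (K^[m]) (ball (0 : E) δ) (ball (0 : E) δ₁) := fun x hx =>
    mem_ball_zero_iff.2 ((hsup m x hx).trans_lt hm1)
  obtain ⟨C₂, hC₂0, hC₂⟩ := iter_bdd isOpen_ball hne
    (fun x hx => (mem_ball_zero_iff.1 hx).le) hm hK hκ0.le hκ hd k
  set Q : ℝ := max C₂ (cc k C₂ * |C₁|) with hQ
  have hQ0 : 0 ≤ Q := le_max_of_le_left hC₂0
  refine ⟨Q * (b ^ m)⁻¹, by positivity, fun l => ?_⟩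
  rcases lt_or_ge l m with hl | hl
  · refine (hC₂ l).mono ?_
    have e1 : 1 ≤ (b ^ m)⁻¹ * b ^ l := by
      rw [inv_mul_eq_div, one_le_div (by positivity)]
      exact pow_le_pow_of_le_one hb0.le hb1.le hl.le
    calc C₂ ≤ Q * 1 := by rw [mul_one]; exact le_max_left _ _
      _ ≤ Q * ((b ^ m)⁻¹ * b ^ l) := by gcongr
      _ = Q * (b ^ m)⁻¹ * b ^ l := by ring
  · obtain ⟨j, rfl⟩ := Nat.exists_eq_add_of_le hl
    have e : K^[m + j] = fun x => K^[j] (K^[m] x) := by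
      funext x
      rw [add_comm, Function.iterate_add_apply]
    rw [e]
    refine (Bd.comp isOpen_ball hne hmm (hC₁ j) (hC₂ m)).mono ?_
    have hcc : 0 ≤ cc k C₂ := by linarith [one_le_cc k hC₂0]
    calc cc k C₂ * (C₁ * b ^ j) ≤ cc k C₂ * (|C₁| * b ^ j) := by gcongr; exact le_abs_self _
      _ = (cc k C₂ * |C₁|) * b ^ j := by ring
      _ ≤ Q * b ^ j := by gcongr; exact le_max_right _ _
      _ = Q * (b ^ m)⁻¹ * b ^ (m + j) := by rw [pow_add]; field_simp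

end Vale.Agent.P207.N3.H629
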