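import Vale.Agent.P207.N3.H629.Apriori
import Vale.Agent.P207.N3.H629.Iter
import Vale.Agent.P207.N3.H639.Cls

/-!
# P207, line N3, row P3ELB (B1), (B2): the local inverse of the chart map of a `Half`

`LInv H` is the inverse `(A, B)` of `(a, b)` near the origin, with bounded derivatives;
`leaf_rec` is the leaf recursion `σ_n (A (q, s)) = B (q, s)`, `s = σ_{n+1} (q)`, for all `n`.
-/

set_option maxSynthPendingDepth 3

open Set Filter Topology Metric InnerProductSpace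
open scoped ContDiff RealInnerProductSpace Gradient

noncomputable section

namespace Vale.Agent.P207.N3.H629

open P207N3H639

/-- Smooth on an open set which contains a compact set: bounded derivatives inside. -/
theorem sm_of_contDiffOn {E F : Type} [NormedAddCommGroup E] [NormedSpace ℝ E]
    [NormedAddCommGroup F] [NormedSpace ℝ F] {U V K : Set E} (hU : IsOpen U) (hV : IsOpen V)
    (hK : IsCompact K) (hUK : U ⊆ K) (hKV : K ⊆ V) {f : E → F} (hf : ContDiffOn ℝ ∞ f V) :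
    Sm U f := by
  intro k
  have h1 : ∀ j : ℕ, ∃ C, ∀ x ∈ K, ‖iteratedFDeriv ℝ j f x‖ ≤ C := by
    intro j
    have h2 : ContinuousOn (iteratedFDeriv ℝ j f) V := by
      refine (hf.continuousOn_iteratedFDerivWithin (m := j)
        (by exact_mod_cast le_top) hV.uniqueDiffOn).congr fun x hx => ?_
      exact (iteratedFDerivWithin_of_isOpen j hV hx).symm
    exact hK.exists_bound_of_continuousOn (h2.mono hKV)
  choose C hC using h1
  refine ⟨∑ j ∈ Finset.range (k + 1), |C j|, Finset.sum_nonneg fun _ _ => abs_nonneg _,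
    bd_of_iter hU ((hf.mono (hUK.trans hKV)).of_le (by exact_mod_cast le_top)) ?_⟩
  intro j hj x hx
  refine (hC j x (hUK hx)).trans ((le_abs_self _).trans ?_)
  exact Finset.single_le_sum (f := fun j => |C j|) (fun i _ => abs_nonneg _)
    (Finset.mem_range.2 (by omega))

/-- The local inverse of `(a, b)`. -/
structure LInv (H : Half) where
  /-- radius in the target -/
  ε : ℝ
  ε_pos : 0 < ε
  /-- radius in the source -/
  ρ : ℝ
  ρ_pos : 0 < ρ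
  ρ_lt : ρ < H.ρ
  A : E2 × E2 → E2
  B : E2 × E2 → E2
  A_sm : Sm (ball (0 : E2) ε ×ˢ ball (0 : E2) ε) A
  B_sm : Sm (ball (0 : E2) ε ×ˢ ball (0 : E2) ε) B
  A_mem : ∀ w ∈ ball (0 : E2) ε ×ˢ ball (0 : E2) ε, A w ∈ ball (0 : E2) ρ
  B_mem : ∀ w ∈ ball (0 : E2) ε ×ˢ ball (0 : E2) ε, B w ∈ ball (0 : E2) ρ
  a_inv : ∀ w ∈ ball (0 : E2) ε ×ˢ ball (0 : E2) ε, H.a (A w, B w) = w.1
  b_inv : ∀ w ∈ ball (0 : E2) ε ×ˢ ball (0 : E2) ε, H.b (A w, B w) = w.2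
  inv_A : ∀ z ∈ ball (0 : E2) ρ ×ˢ ball (0 : E2) ρ, A (H.a z, H.b z) = z.1
  inv_B : ∀ z ∈ ball (0 : E2) ρ ×ˢ ball (0 : E2) ρ, B (H.a z, H.b z) = z.2
  A_zero : ∀ s ∈ ball (0 : E2) ε, A (0, s) = 0
  B_zero : ∀ q ∈ ball (0 : E2) ε, B (q, 0) = 0
  κ : ℝ
  κ_pos : 0 < κ
  κ_lt : κ < 1
  K_le : ∀ q ∈ ball (0 : E2) ε, ‖fderiv ℝ (fun q => A (q, 0)) q‖ ≤ κ
  K_zero : ‖fderiv ℝ (fun q => A (q, 0)) 0‖ ≤ ‖fderiv ℝ H.M 0‖

section Inv

variable (H : Half)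

/-- the chart map -/
def Ph (z : E2 × E2) : E2 × E2 := (H.a z, H.b z)

theorem Ph_zero : Ph H (0, 0) = (0, 0) := by
  simp [Ph, H.a_zero 0 (mem_ball_self H.r_pos), H.b_zero 0 (mem_ball_self H.r_pos)]

theorem Ph_diff {z : E2 × E2} (hz : z ∈ ball (0 : E2) H.r ×ˢ ball (0 : E2) H.r) :
    HasFDerivAt (Ph H) ((fderiv ℝ H.a z).prod (fderiv ℝ H.b z)) z :=
  (a_diff H hz).prodMk (b_diff H hz)

theorem Ph_smooth : ContDiffOn ℝ ∞ (Ph H) (ball (0 : E2) H.r ×ˢ ball (0 : E2) H.r) :=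
  H.a_smooth.prodMk H.b_smooth

theorem Ph_inj {z : E2 × E2} (hz : z ∈ ball (0 : E2) H.r ×ˢ ball (0 : E2) H.r) :
    Function.Injective ((fderiv ℝ H.a z).prod (fderiv ℝ H.b z) : E2 × E2 →L[ℝ] E2 × E2) := by
  intro u v huv
  have h : ((fderiv ℝ H.a z).prod (fderiv ℝ H.b z)) (u - v) = 0 := by
    rw [map_sub]; exact sub_eq_zero.2 huv
  have ha : fderiv ℝ H.a z (u - v) = 0 := congrArg Prod.fst h
  have hb : fderiv ℝ H.b z (u - v) = 0 := congrArg Prod.snd h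
  have h1 := H.symp z hz (u - v) (0, (u - v).1)
  have h2 := H.symp z hz (u - v) ((u - v).2, 0)
  rw [ha, hb] at h1 h2
  simp only [inner_zero_left, inner_zero_right, sub_zero, zero_sub] at h1 h2
  have e1 : (u - v).1 = 0 := by
    rw [eq_comm] at h1
    exact inner_self_eq_zero.1 h1
  have e2 : (u - v).2 = 0 := by
    rw [eq_comm, neg_eq_zero] at h2
    exact inner_self_eq_zero.1 h2
  exact sub_eq_zero.1 (Prod.ext e1 e2)

/-- the derivative as an equivalence -/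
def Pe {z : E2 × E2} (hz : z ∈ ball (0 : E2) H.r ×ˢ ball (0 : E2) H.r) :
    (E2 × E2) ≃L[ℝ] (E2 × E2) :=
  (LinearEquiv.ofInjectiveEndo
    ((fderiv ℝ H.a z).prod (fderiv ℝ H.b z) : E2 × E2 →ₗ[ℝ] E2 × E2)
    (Ph_inj H hz)).toContinuousLinearEquiv

theorem Pe_coe {z : E2 × E2} (hz : z ∈ ball (0 : E2) H.r ×ˢ ball (0 : E2) H.r) :
    ((Pe H hz : (E2 × E2) ≃L[ℝ] (E2 × E2)) : (E2 × E2) →L[ℝ] (E2 × E2)) =
      (fderiv ℝ H.a z).prod (fderiv ℝ H.b z) := by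
  ext v <;> rfl

theorem norm_DM (v : E2) : ‖v‖ ≤ ‖La H‖ * ‖fderiv ℝ H.M 0 v‖ := by
  rcases eq_or_ne v 0 with rfl | hv
  · simp
  have hv' : 0 < ‖v‖ := norm_pos_iff.2 hv
  have h := dual H v v
  rw [real_inner_self_eq_norm_sq] at h
  have h1 : ‖v‖ ^ 2 ≤ (‖La H‖ * ‖v‖) * ‖fderiv ℝ H.M 0 v‖ := by
    rw [← h]
    refine (real_inner_le_norm _ _).trans ?_
    gcongr
    exact ContinuousLinearMap.le_opNorm _ _
  have h2 : ‖v‖ * ‖v‖ ≤ (‖La H‖ * ‖fderiv ℝ H.M 0 v‖) * ‖v‖ := by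
    calc ‖v‖ * ‖v‖ = ‖v‖ ^ 2 := by ring
      _ ≤ _ := h1
      _ = _ := by ring
  exact le_of_mul_le_mul_right h2 hv'

variable {H}

/-- `|q| ≤ C |a (q, p)|` -/
theorem eq_zero_of_a {η ρ : ℝ} (hρ : ρ < H.ρ)
    (h : ∀ z ∈ ball (0 : E2) ρ ×ˢ ball (0 : E2) ρ, ‖fderiv ℝ H.a z - fderiv ℝ H.a (0, 0)‖ ≤ η ∧
      ‖fderiv ℝ H.b z - fderiv ℝ H.b (0, 0)‖ ≤ η) (hη : ‖fderiv ℝ H.M 0‖ * η < 1) {q p : E2}
    (hq : q ∈ ball (0 : E2) ρ) (hp : p ∈ ball (0 : E2) ρ) (ha : H.a (q, p) = 0) : q = 0 := by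
  have hρ0 : 0 < ρ := (norm_nonneg q).trans_lt (mem_ball_zero_iff.1 hq)
  have hη0 : 0 ≤ η := (norm_nonneg _).trans (h (q, p) ⟨hq, hp⟩).1
  have h1 : ∀ x ∈ ball (0 : E2) ρ, HasFDerivWithinAt (fun q => H.a (q, p))
      ((fderiv ℝ H.a (x, p)).comp (ContinuousLinearMap.inl ℝ E2 E2)) (ball (0 : E2) ρ) x := by
    intro x hx
    have hz : (x, p) ∈ ball (0 : E2) H.r ×ˢ ball (0 : E2) H.r := ball_sub H hρ ⟨hx, hp⟩
    exact (HasFDerivAt.comp (g := H.a) (f := fun q : E2 => (q, p)) x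
      (a_diff H hz) (hasFDerivAt_prodMk_left (𝕜 := ℝ) x p)).hasFDerivWithinAt
  have h2 : ∀ x ∈ ball (0 : E2) ρ,
      ‖(fderiv ℝ H.a (x, p)).comp (ContinuousLinearMap.inl ℝ E2 E2) - La H‖ ≤ η := by
    intro x hx
    refine ContinuousLinearMap.opNorm_le_bound _ hη0 fun v => ?_
    have e : ((fderiv ℝ H.a (x, p)).comp (ContinuousLinearMap.inl ℝ E2 E2) - La H) v =
        (fderiv ℝ H.a (x, p) - fderiv ℝ H.a (0, 0)) (v, 0) := by
      rw [_root_.sub_apply, _root_.sub_apply, La_apply]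
      simp
    rw [e]
    refine (ContinuousLinearMap.le_opNorm _ _).trans ?_
    have e2 : ‖(v, (0 : E2))‖ = ‖v‖ := by simp [Prod.norm_def]
    rw [e2]
    exact mul_le_mul_of_nonneg_right (h (x, p) ⟨hx, hp⟩).1 (norm_nonneg v)
  have h3 := (convex_ball (0 : E2) ρ).norm_image_sub_le_of_norm_hasFDerivWithin_le' h1 h2
    (mem_ball_self hρ0) hq
  have h4 : H.a (0, p) = 0 := H.a_zero p (ball_subset_ball (hρ.le.trans H.ρ_le) hp)
  simp only [ha, h4, sub_zero, zero_sub, norm_neg] at h3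
  have h5 := norm_La H q
  have h6 : ‖fderiv ℝ H.M 0‖ * ‖La H q‖ ≤ ‖fderiv ℝ H.M 0‖ * (η * ‖q‖) :=
    mul_le_mul_of_nonneg_left h3 (norm_nonneg _)
  by_contra hne
  have hq' : 0 < ‖q‖ := norm_pos_iff.2 hne
  nlinarith

theorem eq_zero_of_b {η ρ : ℝ} (hρ : ρ < H.ρ)
    (h : ∀ z ∈ ball (0 : E2) ρ ×ˢ ball (0 : E2) ρ, ‖fderiv ℝ H.a z - fderiv ℝ H.a (0, 0)‖ ≤ η ∧
      ‖fderiv ℝ H.b z - fderiv ℝ H.b (0, 0)‖ ≤ η) (hη : ‖La H‖ * η < 1) {q p : E2}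
    (hq : q ∈ ball (0 : E2) ρ) (hp : p ∈ ball (0 : E2) ρ) (hb : H.b (q, p) = 0) : p = 0 := by
  have hρ0 : 0 < ρ := (norm_nonneg q).trans_lt (mem_ball_zero_iff.1 hq)
  have hη0 : 0 ≤ η := (norm_nonneg _).trans (h (q, p) ⟨hq, hp⟩).1
  have h1 : ∀ x ∈ ball (0 : E2) ρ, HasFDerivWithinAt (fun p => H.b (q, p))
      ((fderiv ℝ H.b (q, x)).comp (ContinuousLinearMap.inr ℝ E2 E2)) (ball (0 : E2) ρ) x := by
    intro x hx
    have hz : (q, x) ∈ ball (0 : E2) H.r ×ˢ ball (0 : E2) H.r := ball_sub H hρ ⟨hq, hx⟩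
    exact (HasFDerivAt.comp (g := H.b) (f := fun p : E2 => (q, p)) x
      (b_diff H hz) (hasFDerivAt_prodMk_right (𝕜 := ℝ) q x)).hasFDerivWithinAt
  have h2 : ∀ x ∈ ball (0 : E2) ρ,
      ‖(fderiv ℝ H.b (q, x)).comp (ContinuousLinearMap.inr ℝ E2 E2) - fderiv ℝ H.M 0‖ ≤ η := by
    intro x hx
    refine ContinuousLinearMap.opNorm_le_bound _ hη0 fun v => ?_
    have e : ((fderiv ℝ H.b (q, x)).comp (ContinuousLinearMap.inr ℝ E2 E2) - fderiv ℝ H.M 0) v =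
        (fderiv ℝ H.b (q, x) - fderiv ℝ H.b (0, 0)) (0, v) := by
      rw [_root_.sub_apply, _root_.sub_apply, ← b_p_zero]
      simp
    rw [e]
    refine (ContinuousLinearMap.le_opNorm _ _).trans ?_
    have e2 : ‖((0 : E2), v)‖ = ‖v‖ := by simp [Prod.norm_def]
    rw [e2]
    exact mul_le_mul_of_nonneg_right (h (q, x) ⟨hq, hx⟩).2 (norm_nonneg v)
  have h3 := (convex_ball (0 : E2) ρ).norm_image_sub_le_of_norm_hasFDerivWithin_le' h1 h2
    (mem_ball_self hρ0) hp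
  have h4 : H.b (q, 0) = 0 := H.b_zero q (ball_subset_ball (hρ.le.trans H.ρ_le) hq)
  simp only [hb, h4, sub_zero, zero_sub, norm_neg] at h3
  have h5 := norm_DM H p
  have h6 : ‖La H‖ * ‖fderiv ℝ H.M 0 p‖ ≤ ‖La H‖ * (η * ‖p‖) :=
    mul_le_mul_of_nonneg_left h3 (norm_nonneg _)
  by_contra hne
  have hq' : 0 < ‖p‖ := norm_pos_iff.2 hne
  nlinarith

theorem exists_ball_prod {V : Set (E2 × E2)} (hV : IsOpen V) (h0 : ((0 : E2), (0 : E2)) ∈ V) :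
    ∃ ε > 0, closedBall (0 : E2) ε ×ˢ closedBall (0 : E2) ε ⊆ V := by
  obtain ⟨ε, hε, h⟩ := Metric.isOpen_iff.1 hV _ h0
  refine ⟨ε / 2, by linarith, ?_⟩
  rw [closedBall_prod_same]
  exact (closedBall_subset_ball (by linarith)).trans h

/-- **The local inverse exists.** -/
theorem exists_linv (H : Half) (hM : ‖fderiv ℝ H.M 0‖ < 1) : Nonempty (LInv H) := by
  set m : ℝ := ‖fderiv ℝ H.M 0‖ with hm
  have hm0 : 0 < m := norm_M_pos H
  -- the inverse function theorem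
  have hcd : ContDiffAt ℝ ∞ (Ph H) (0, 0) :=
    (Ph_smooth H).contDiffAt ((prod_open H).mem_nhds (zero_mem H))
  have hd0 : HasFDerivAt (Ph H)
      ((Pe H (zero_mem H) : (E2 × E2) ≃L[ℝ] (E2 × E2)) : (E2 × E2) →L[ℝ] (E2 × E2)) (0, 0) := by
    rw [Pe_coe]; exact Ph_diff H (zero_mem H)
  have hn : (∞ : WithTop ℕ∞) ≠ 0 := by simp
  set e := hcd.toOpenPartialHomeomorph (Ph H) hd0 hn with he
  have hecoe : ∀ z, e z = Ph H z := fun z => rfl
  have he0 : ((0 : E2), (0 : E2)) ∈ e.source := hcd.mem_toOpenPartialHomeomorph_source hd0 hn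
  -- estimates
  set Λ : ℝ := ‖La H‖ with hΛ
  obtain ⟨η, hη0, hη⟩ : ∃ η : ℝ, 0 < η ∧ m * η < 1 ∧ Λ * η < 1 := by
    refine ⟨1 / (2 * (m + Λ + 1)), by positivity, ?_, ?_⟩
    · rw [mul_one_div, div_lt_one (by positivity)]
      have : 0 ≤ Λ := norm_nonneg _
      linarith
    · rw [mul_one_div, div_lt_one (by positivity)]
      have : 0 ≤ Λ := norm_nonneg _
      linarith
  obtain ⟨ρ₀, hρ₀0, hρ₀, hρ₀h⟩ := exists_radius H hη0
  obtain ⟨ρ₁, hρ₁0, hρ₁⟩ := exists_ball_prod e.open_source he0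
  set ρ : ℝ := min ρ₀ ρ₁ with hρd
  have hρ0 : 0 < ρ := lt_min hρ₀0 hρ₁0
  have hρ : ρ < H.ρ := (min_le_left _ _).trans_lt hρ₀
  have hsub0 : ball (0 : E2) ρ ⊆ ball (0 : E2) ρ₀ := ball_subset_ball (min_le_left _ _)
  have hsrc : ball (0 : E2) ρ ×ˢ ball (0 : E2) ρ ⊆ e.source := by
    refine (Set.prod_mono ?_ ?_).trans hρ₁
    · exact (ball_subset_closedBall).trans (closedBall_subset_closedBall (min_le_right _ _))
    · exact (ball_subset_closedBall).trans (closedBall_subset_closedBall (min_le_right _ _))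
  have hr : ball (0 : E2) ρ ×ˢ ball (0 : E2) ρ ⊆ ball (0 : E2) H.r ×ˢ ball (0 : E2) H.r :=
    fun z hz => ball_sub H hρ hz
  -- the open set in the target
  set V : Set (E2 × E2) := e.target ∩ e.symm ⁻¹' (ball (0 : E2) ρ ×ˢ ball (0 : E2) ρ) with hV
  have hVo : IsOpen V := e.isOpen_inter_preimage_symm (isOpen_ball.prod isOpen_ball)
  have he00 : e (0, 0) = (0, 0) := Ph_zero H
  have hsymm0 : e.symm (0, 0) = (0, 0) := by
    have := e.left_inv he0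
    rwa [he00] at this
  have hV0 : ((0 : E2), (0 : E2)) ∈ V := by
    refine ⟨?_, ?_⟩
    · have := e.map_source he0
      rwa [he00] at this
    · rw [mem_preimage, hsymm0]
      exact ⟨mem_ball_self hρ0, mem_ball_self hρ0⟩
  have hVsm : ContDiffOn ℝ ∞ e.symm V := by
    intro w hw
    have hz : e.symm w ∈ ball (0 : E2) H.r ×ˢ ball (0 : E2) H.r := hr hw.2
    refine (e.contDiffAt_symm (f₀' := Pe H hz) hw.1 ?_ ?_).contDiffWithinAt
    · rw [Pe_coe]; exact Ph_diff H hz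
    · exact (Ph_smooth H).contDiffAt ((prod_open H).mem_nhds hz)
  obtain ⟨ε₁, hε₁, hε₁V⟩ := exists_ball_prod hVo hV0
  -- smallness of the derivative of `K`
  have hsm1 : ContDiffOn ℝ ∞ (fun w => (e.symm w).1) V := contDiff_fst.comp_contDiffOn hVsm
  have hsm2 : ContDiffOn ℝ ∞ (fun w => (e.symm w).2) V := contDiff_snd.comp_contDiffOn hVsm
  set K : E2 → E2 := fun q => (e.symm (q, 0)).1 with hK
  have hKsm : ContDiffOn ℝ ∞ K (ball (0 : E2) ε₁) := by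
    have hmaps : MapsTo (fun q : E2 => (q, (0 : E2))) (ball (0 : E2) ε₁) V := fun q hq =>
      hε₁V ⟨ball_subset_closedBall hq, mem_closedBall_self hε₁.le⟩
    exact hsm1.comp (contDiff_id.prodMk contDiff_const).contDiffOn hmaps
  have hright : ∀ w ∈ V, Ph H (e.symm w) = w := fun w hw => e.right_inv hw.1
  have hB0 : ∀ q ∈ ball (0 : E2) ε₁, (e.symm (q, 0)).2 = 0 := by
    intro q hq
    have hw : (q, (0 : E2)) ∈ V := hε₁V ⟨ball_subset_closedBall hq, mem_closedBall_self hε₁.le⟩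
    have h1 := hright _ hw
    have h2 : H.b (e.symm (q, 0)) = 0 := congrArg Prod.snd h1
    exact eq_zero_of_b hρ₀ hρ₀h hη.2 (q := (e.symm (q, 0)).1) (p := (e.symm (q, 0)).2)
      (hsub0 hw.2.1) (hsub0 hw.2.2) h2
  have hA0 : ∀ s ∈ ball (0 : E2) ε₁, (e.symm (0, s)).1 = 0 := by
    intro s hs
    have hw : ((0 : E2), s) ∈ V := hε₁V ⟨mem_closedBall_self hε₁.le, ball_subset_closedBall hs⟩
    have h1 := hright _ hw
    have h2 : H.a (e.symm (0, s)) = 0 := congrArg Prod.fst h1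
    exact eq_zero_of_a hρ₀ hρ₀h hη.1 (q := (e.symm (0, s)).1) (p := (e.symm (0, s)).2)
      (hsub0 hw.2.1) (hsub0 hw.2.2) h2
  have hKN : ∀ q ∈ ball (0 : E2) ε₁, H.a (K q, 0) = q := by
    intro q hq
    have hw : (q, (0 : E2)) ∈ V := hε₁V ⟨ball_subset_closedBall hq, mem_closedBall_self hε₁.le⟩
    have h1 : H.a (e.symm (q, 0)) = q := congrArg Prod.fst (hright _ hw)
    have h2 : e.symm (q, 0) = (K q, 0) := Prod.ext rfl (hB0 q hq)
    rwa [h2] at h1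
  have hK0 : K 0 = 0 := by show (e.symm (0, 0)).1 = 0; rw [hsymm0]
  have hKd : DifferentiableAt ℝ K 0 :=
    (hKsm.contDiffAt (isOpen_ball.mem_nhds (mem_ball_self hε₁))).differentiableAt (by simp)
  have hDK : ‖fderiv ℝ K 0‖ ≤ m := by
    refine ContinuousLinearMap.opNorm_le_bound _ hm0.le fun v => ?_
    have h1 : (La H) (fderiv ℝ K 0 v) = v := by
      have e1 : HasFDerivAt (fun q : E2 => H.a (q, 0)) (La H) (K 0) := by
        rw [hK0]
        exact HasFDerivAt.comp (g := H.a) (f := fun q : E2 => (q, (0 : E2))) (0 : E2)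
          (a_diff H (zero_mem H)) (hasFDerivAt_prodMk_left (𝕜 := ℝ) (0 : E2) (0 : E2))
      have e2 : HasFDerivAt (fun q : E2 => H.a (K q, 0)) ((La H).comp (fderiv ℝ K 0)) 0 :=
        HasFDerivAt.comp (g := fun q : E2 => H.a (q, 0)) (f := K) (0 : E2) e1 hKd.hasFDerivAt
      have e3 : (fun q : E2 => H.a (K q, 0)) =ᶠ[𝓝 0] fun q => q := by
        filter_upwards [isOpen_ball.mem_nhds (mem_ball_self hε₁)] with q hq using hKN q hq
      have e4 : (La H).comp (fderiv ℝ K 0) = ContinuousLinearMap.id ℝ E2 := by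
        rw [← e2.fderiv, e3.fderiv_eq]; exact fderiv_id
      have := congrArg (fun T : E2 →L[ℝ] E2 => T v) e4
      simpa using this
    have := norm_La H (fderiv ℝ K 0 v)
    rwa [h1] at this
  obtain ⟨κ, hmκ, hκ1⟩ := exists_between hM
  have hcont : ContinuousAt (fun q => ‖fderiv ℝ K q‖) 0 := by
    have := (hKsm.fderiv_of_isOpen (m := 0) isOpen_ball (by simp)).continuousOn
    exact (this.continuousAt (isOpen_ball.mem_nhds (mem_ball_self hε₁))).norm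
  obtain ⟨ε₂, hε₂, hε₂d⟩ := Metric.eventually_nhds_iff.1
    (hcont.eventually_lt_const (hDK.trans_lt hmκ))
  obtain ⟨ε, hε0, hε⟩ := exists_between (lt_min hε₁ hε₂)
  have hεε₁ : ε < ε₁ := hε.trans_le (min_le_left _ _)
  have hεε₂ : ε < ε₂ := hε.trans_le (min_le_right _ _)
  have hbb : ball (0 : E2) ε ×ˢ ball (0 : E2) ε ⊆ V :=
    (Set.prod_mono (ball_subset_closedBall.trans (closedBall_subset_closedBall hεε₁.le))
      (ball_subset_closedBall.trans (closedBall_subset_closedBall hεε₁.le))).trans hε₁V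
  have hcompact : IsCompact (closedBall (0 : E2) ε ×ˢ closedBall (0 : E2) ε) :=
    (isCompact_closedBall _ _).prod (isCompact_closedBall _ _)
  have hcV : closedBall (0 : E2) ε ×ˢ closedBall (0 : E2) ε ⊆ V :=
    (Set.prod_mono (closedBall_subset_closedBall hεε₁.le)
      (closedBall_subset_closedBall hεε₁.le)).trans hε₁V
  have hbε : ball (0 : E2) ε ⊆ ball (0 : E2) ε₁ := ball_subset_ball hεε₁.le
  refine ⟨{
    ε := ε
    ε_pos := hε0
    ρ := ρ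
    ρ_pos := hρ0
    ρ_lt := hρ
    A := fun w => (e.symm w).1
    B := fun w => (e.symm w).2
    A_sm := sm_of_contDiffOn (isOpen_ball.prod isOpen_ball) hVo hcompact
      (Set.prod_mono ball_subset_closedBall ball_subset_closedBall) hcV hsm1
    B_sm := sm_of_contDiffOn (isOpen_ball.prod isOpen_ball) hVo hcompact
      (Set.prod_mono ball_subset_closedBall ball_subset_closedBall) hcV hsm2
    A_mem := fun w hw => (hbb hw).2.1
    B_mem := fun w hw => (hbb hw).2.2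
    a_inv := fun w hw => congrArg Prod.fst (hright w (hbb hw))
    b_inv := fun w hw => congrArg Prod.snd (hright w (hbb hw))
    inv_A := fun z hz => congrArg Prod.fst (e.left_inv (hsrc hz))
    inv_B := fun z hz => congrArg Prod.snd (e.left_inv (hsrc hz))
    A_zero := fun s hs => hA0 s (hbε hs)
    B_zero := fun q hq => hB0 q (hbε hq)
    κ := κ
    κ_pos := hm0.trans hmκ
    κ_lt := hκ1
    K_le := fun q hq => (hε₂d (show dist q 0 < ε₂ from (mem_ball.1 hq).trans hεε₂)).le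
    K_zero := hDK }⟩

end Inv

/-! ### consequences -/

variable {H : Half}

namespace LInv

/-- `K = N⁻¹` near the origin -/
def K (I : LInv H) (q : E2) : E2 := I.A (q, 0)

theorem mem0 (I : LInv H) {q : E2} (hq : q ∈ ball (0 : E2) I.ε) :
    (q, (0 : E2)) ∈ ball (0 : E2) I.ε ×ˢ ball (0 : E2) I.ε := ⟨hq, mem_ball_self I.ε_pos⟩

theorem K_at_zero (I : LInv H) : I.K 0 = 0 := I.A_zero 0 (mem_ball_self I.ε_pos)

theorem N_K (I : LInv H) {q : E2} (hq : q ∈ ball (0 : E2) I.ε) : H.N (I.K q) = q := by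
  have h1 := I.a_inv _ (I.mem0 hq)
  rw [I.B_zero q hq] at h1
  have h2 : I.K q ∈ ball (0 : E2) H.r :=
    ball_subset_ball (I.ρ_lt.le.trans H.ρ_le) (I.A_mem _ (I.mem0 hq))
  rw [← H.a_axis _ h2]
  exact h1

theorem K_sm (I : LInv H) : Sm (ball (0 : E2) I.ε) I.K := by
  have h := I.A_sm
  have h1 : Sm (ball (0 : E2) I.ε) (fun q : E2 => (q, (0 : E2))) :=
    Sm.prodMk isOpen_ball (Sm.id (R := I.ε) fun x hx => (mem_ball_zero_iff.1 hx).le) Sm.zero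
  exact Sm.comp (V := ball (0 : E2) I.ε ×ˢ ball (0 : E2) I.ε) isOpen_ball
    (fun q hq => I.mem0 hq) h h1

theorem K_diff (I : LInv H) {q : E2} (hq : q ∈ ball (0 : E2) I.ε) : DifferentiableAt ℝ I.K q :=
  I.K_sm.diff hq

theorem norm_K (I : LInv H) {q : E2} (hq : q ∈ ball (0 : E2) I.ε) : ‖I.K q‖ ≤ I.κ * ‖q‖ := by
  have := (convex_ball (0 : E2) I.ε).norm_image_sub_le_of_norm_fderiv_le (𝕜 := ℝ)
    (fun y hy => I.K_diff hy) I.K_le (mem_ball_self I.ε_pos) hq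
  simpa [I.K_at_zero] using this

/-- all iterates of `K`, with every rate bigger than `‖DM(0)‖`. -/
theorem K_iter (I : LInv H) {δ : ℝ} (hδ0 : 0 < δ) (hδ : δ ≤ I.ε) {b : ℝ}
    (hb : ‖fderiv ℝ H.M 0‖ < b) (k : ℕ) :
    ∃ C, 0 ≤ C ∧ ∀ l, Bd (ball (0 : E2) δ) k (I.K^[l]) (C * b ^ l) :=
  iter_rate hδ0 I.K_at_zero
    (fun k => ((I.K_sm.mono (ball_subset_ball hδ)) k).imp fun _ hC => hC.2) I.κ_pos I.κ_lt
    (fun x hx => I.K_le x (ball_subset_ball hδ hx)) (I.K_zero.trans_lt hb) k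

end LInv

/-- **The leaf recursion** for the whole orbit of a small label. -/
theorem leaf_rec (I : LInv H) (hM : ‖fderiv ℝ H.M 0‖ < 1) {b : ℝ} (hb : ‖fderiv ℝ H.M 0‖ < b) :
    ∃ δ₀ > 0, δ₀ ≤ I.ε ∧ δ₀ < H.ρ ∧ ∀ δ, 0 < δ → δ ≤ δ₀ → ∃ ε > 0, ε ≤ I.ε ∧ ε < H.ρ ∧
      ∀ y ∈ ball (0 : E2) ε,
      (∀ n, H.M^[n] y ∈ ball (0 : E2) ε) ∧ (∀ n, ‖H.M^[n] y‖ ≤ b ^ n * ‖y‖) ∧
      (∀ n, ∀ q ∈ ball (0 : E2) δ, ‖∇ (H.S (H.M^[n] y)) q‖ < I.ε) ∧
      (∀ n, ∀ q ∈ ball (0 : E2) δ,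
        ‖I.A (q, ∇ (H.S (H.M^[n + 1] y)) q)‖ ≤ ‖q‖ ∧
        ∇ (H.S (H.M^[n] y)) (I.A (q, ∇ (H.S (H.M^[n + 1] y)) q)) =
          I.B (q, ∇ (H.S (H.M^[n + 1] y)) q) ∧
        ∇ (H.S (H.M^[n + 1] y)) q = H.b (I.A (q, ∇ (H.S (H.M^[n + 1] y)) q),
          ∇ (H.S (H.M^[n] y)) (I.A (q, ∇ (H.S (H.M^[n + 1] y)) q)))) ∧
      ∀ k : ℕ, ∃ C, 0 ≤ C ∧ ∀ n, Bd (ball (0 : E2) δ) k (∇ (H.S (H.M^[n] y))) (C * b ^ n) := by
  obtain ⟨δ₁, hδ₁0, hδ₁ρ, h₁⟩ := apriori H hM hb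
  refine ⟨min δ₁ (min I.ε I.ρ), lt_min hδ₁0 (lt_min I.ε_pos I.ρ_pos),
    (min_le_right _ _).trans (min_le_left _ _), (min_le_left _ _).trans_lt hδ₁ρ,
    fun δ hδ0 hδ => ?_⟩
  have hδε : δ ≤ I.ε := hδ.trans ((min_le_right _ _).trans (min_le_left _ _))
  have hδρ : δ ≤ I.ρ := hδ.trans ((min_le_right _ _).trans (min_le_right _ _))
  obtain ⟨ε₁, hε₁0, hε₁ρ, h₂⟩ := h₁ δ hδ0 (hδ.trans (min_le_left _ _))
  have hδr : δ < H.r := hδρ.trans_lt (I.ρ_lt.trans_le H.ρ_le)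
  obtain ⟨ε₂, hε₂, hε₂r, h₃⟩ := S_small H 1 hδr (lt_min I.ε_pos I.ρ_pos)
  -- the orbit stays in a smaller ball
  obtain ⟨κ, hmκ, hκ1⟩ := exists_between hM
  obtain ⟨η, hη0, hη⟩ := exists_between (sub_pos.2 hmκ)
  obtain ⟨ρ', hρ'0, hρ', hρ'h⟩ := exists_radius H hη0
  set ε : ℝ := min (min ε₁ ε₂) (min ρ' I.ε) with hεd
  have hε0 : 0 < ε := lt_min (lt_min hε₁0 hε₂) (lt_min hρ'0 I.ε_pos)
  have e1 : ε ≤ ε₁ := (min_le_left _ _).trans (min_le_left _ _)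
  have e2 : ε ≤ ε₂ := (min_le_left _ _).trans (min_le_right _ _)
  have e3 : ε ≤ ρ' := (min_le_right _ _).trans (min_le_left _ _)
  have e4 : ε ≤ I.ε := (min_le_right _ _).trans (min_le_right _ _)
  refine ⟨ε, hε0, e4, e1.trans_lt hε₁ρ, fun y hy => ?_⟩
  obtain ⟨hin, hdec, hback, hbd⟩ := h₂ y (ball_subset_ball e1 hy)
  have hκ0 : 0 ≤ κ := (norm_nonneg _).trans hmκ.le
  have hinε : ∀ n, H.M^[n] y ∈ ball (0 : E2) ε := by
    intro n
    have h5 := (M_iter H hρ' hρ'h (κ := κ) (by linarith) hκ1 (ball_subset_ball e3 hy) n).2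
    rw [mem_ball_zero_iff]
    have h6 : κ ^ n ≤ 1 := pow_le_one₀ hκ0 hκ1.le
    have h7 := mem_ball_zero_iff.1 hy
    nlinarith [norm_nonneg y]
  have hsm : ∀ n, ∀ q ∈ ball (0 : E2) δ, ‖∇ (H.S (H.M^[n] y)) q‖ < min I.ε I.ρ := by
    intro n q hq
    have h5 := h₃ _ (ball_subset_ball e2 (hinε n)) q (ball_subset_closedBall hq)
    rw [gradient_eq_dl]
    show ‖dl (fderiv ℝ (H.S (H.M^[n] y)) q)‖ < _
    rw [dl.norm_map, ← norm_iteratedFDeriv_one]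
    exact h5
  refine ⟨hinε, hdec, fun n q hq => (hsm n q hq).trans_le (min_le_left _ _), ?_, fun k => ?_⟩
  · intro n x hx
    obtain ⟨q, hq, hqx, hax, hbx⟩ := hback n x hx
    have hz : (q, ∇ (H.S (H.M^[n] y)) q) ∈ ball (0 : E2) I.ρ ×ˢ ball (0 : E2) I.ρ :=
      ⟨ball_subset_ball hδρ hq, mem_ball_zero_iff.2 ((hsm n q hq).trans_le (min_le_right _ _))⟩
    have hA := I.inv_A _ hz
    have hB := I.inv_B _ hz
    rw [hax, ← hbx] at hA hB
    simp only at hA hB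
    refine ⟨by rw [hA]; exact hqx, by rw [hA, hB], by rw [hA]; exact hbx⟩
  · obtain ⟨C, hC⟩ := hbd k
    have hb0 : 0 < b := (norm_nonneg _).trans_lt hb
    exact ⟨|C|, abs_nonneg _, fun n => (hC n).mono (by gcongr; exact le_abs_self C)⟩

end Vale.Agent.P207.N3.H629
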