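import Vale.Agent.P207.N3.H629.Inv
import Vale.Agent.P207.N3.H639.EL

/-!
# P207, line N3, row P3EL: the leaf recursion of a `Half` as a `LeafRec`

The inputs `LeafRec` and `Ctr` of `LeafRec.expansion` (helper639) for `g y n = ∇ S_{Mⁿ y}`.
-/

set_option maxSynthPendingDepth 3

open Set Filter Topology Metric InnerProductSpace MeasureTheory
open scoped ContDiff RealInnerProductSpace Gradient

noncomputable section

namespace Vale.Agent.P207.N3.H629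

open P207N3H639

variable {H : Half}

/-- `D_p b (x, 0)` is close to `DM(0)`. -/
theorem norm_bp_le (H : Half) {η : ℝ} {z : E2 × E2}
    (h : ‖fderiv ℝ H.b z - fderiv ℝ H.b (0, 0)‖ ≤ η) :
    ‖(fderiv ℝ H.b z).comp (ContinuousLinearMap.inr ℝ E2 E2)‖ ≤ ‖fderiv ℝ H.M 0‖ + η := by
  have hη : 0 ≤ η := (norm_nonneg _).trans h
  refine ContinuousLinearMap.opNorm_le_bound _ (by positivity) fun v => ?_
  have e : (fderiv ℝ H.b z).comp (ContinuousLinearMap.inr ℝ E2 E2) v =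
      (fderiv ℝ H.b z - fderiv ℝ H.b (0, 0)) (0, v) + fderiv ℝ H.M 0 v := by
    rw [← b_p_zero]; simp
  rw [e]
  refine (norm_add_le _ _).trans ?_
  have e1 := (fderiv ℝ H.b z - fderiv ℝ H.b (0, 0)).le_opNorm ((0 : E2), v)
  have e2 : ‖((0 : E2), v)‖ = ‖v‖ := by simp [Prod.norm_def]
  rw [e2] at e1
  have e3 := (fderiv ℝ H.M 0).le_opNorm v
  have e4 := mul_le_mul_of_nonneg_right h (norm_nonneg v)
  linarith

/-- `had2 h (x, 0) = D_p h (x, 0)` -/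
theorem had2_at_zero (h : E2 × E2 → E2) (x : E2) :
    P207N3H639.had2 h (x, 0) = (fderiv ℝ h (x, 0)).comp (ContinuousLinearMap.inr ℝ E2 E2) := by
  have e : ∀ s : ℝ, ((ContinuousLinearMap.inl ℝ E2 E2).comp (ContinuousLinearMap.fst ℝ E2 E2))
      (x, (0 : E2)) + s • ((ContinuousLinearMap.inr ℝ E2 E2).comp
      (ContinuousLinearMap.snd ℝ E2 E2)) (x, (0 : E2)) = (x, (0 : E2)) := by
    intro s
    simp
  simp only [P207N3H639.had2, Iw, e, one_smul]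
  simp

theorem linA_eq (I : LInv H) (q : E2) :
    linA H.b I.K q = (fderiv ℝ H.b (I.K q, 0)).comp (ContinuousLinearMap.inr ℝ E2 E2) :=
  had2_at_zero _ _

/-- `b_q (x, 0) = 0` -/
theorem b_q_axis (H : Half) {x : E2} (hx : x ∈ ball (0 : E2) H.r) (v : E2) :
    fderiv ℝ H.b (x, 0) (v, 0) = 0 := by
  have hz : (x, (0 : E2)) ∈ ball (0 : E2) H.r ×ˢ ball (0 : E2) H.r := ⟨hx, mem_ball_self H.r_pos⟩
  have h1 := HasFDerivAt.comp (g := H.b) (f := fun q : E2 => (q, (0 : E2))) x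
    (b_diff H hz) (hasFDerivAt_prodMk_left (𝕜 := ℝ) x (0 : E2))
  have h2 : (fun q : E2 => H.b (q, 0)) =ᶠ[𝓝 x] fun _ => 0 := by
    filter_upwards [isOpen_ball.mem_nhds hx] with p hp using H.b_zero p hp
  have h3 : fderiv ℝ (fun q : E2 => H.b (q, 0)) x = 0 := by
    rw [h2.fderiv_eq]; simp
  have h4 : fderiv ℝ (fun q : E2 => H.b (q, 0)) x =
      (fderiv ℝ H.b (x, 0)).comp (ContinuousLinearMap.inl ℝ E2 E2) := h1.fderiv
  rw [h3] at h4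
  have := congrArg (fun T : E2 →L[ℝ] E2 => T v) h4
  simpa using this.symm

/-- **The linear part is the transpose of `DK`.** -/
theorem linA_adjoint (I : LInv H) {q : E2} (hq : q ∈ ball (0 : E2) I.ε) :
    linA H.b I.K q = ContinuousLinearMap.adjoint (fderiv ℝ I.K q) := by
  have hKr : I.K q ∈ ball (0 : E2) H.r :=
    ball_subset_ball (I.ρ_lt.le.trans H.ρ_le) (I.A_mem _ (I.mem0 hq))
  have hz : (I.K q, (0 : E2)) ∈ ball (0 : E2) H.r ×ˢ ball (0 : E2) H.r :=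
    ⟨hKr, mem_ball_self H.r_pos⟩
  -- `D(a(., 0))(K q) ∘ DK(q) = id`
  have e1 : HasFDerivAt (fun x : E2 => H.a (x, 0))
      ((fderiv ℝ H.a (I.K q, 0)).comp (ContinuousLinearMap.inl ℝ E2 E2)) (I.K q) :=
    HasFDerivAt.comp (g := H.a) (f := fun x : E2 => (x, (0 : E2))) (I.K q)
      (a_diff H hz) (hasFDerivAt_prodMk_left (𝕜 := ℝ) (I.K q) (0 : E2))
  have e2 := HasFDerivAt.comp (g := fun x : E2 => H.a (x, 0)) (f := I.K) q e1
    (I.K_diff hq).hasFDerivAt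
  have e3 : (fun x : E2 => H.a (I.K x, 0)) =ᶠ[𝓝 q] fun x => x := by
    filter_upwards [isOpen_ball.mem_nhds hq] with x hx
    have h1 := I.a_inv _ (I.mem0 hx)
    rw [I.B_zero x hx] at h1
    exact h1
  have e4 : ((fderiv ℝ H.a (I.K q, 0)).comp (ContinuousLinearMap.inl ℝ E2 E2)).comp
      (fderiv ℝ I.K q) = ContinuousLinearMap.id ℝ E2 := by
    have := e2.fderiv
    change fderiv ℝ (fun x : E2 => H.a (I.K x, 0)) q = _ at this
    rw [← this, e3.fderiv_eq]; exact fderiv_id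
  rw [linA_eq]
  ext1 v
  refine ext_inner_left ℝ fun w => ?_
  rw [ContinuousLinearMap.adjoint_inner_right]
  have h := H.symp (I.K q, 0) hz (fderiv ℝ I.K q w, 0) (0, v)
  rw [b_q_axis H hKr] at h
  have e5 : fderiv ℝ H.a (I.K q, 0) (fderiv ℝ I.K q w, 0) = w := by
    have := congrArg (fun T : E2 →L[ℝ] E2 => T w) e4
    simpa using this
  rw [e5] at h
  simpa using h

/-- iterated coefficients of a contraction with a small coefficient are bounded. -/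
theorem ait_bdd {U : Set E2} (hU : IsOpen U) (hne : U.Nonempty) {K : E2 → E2}
    (hKm : MapsTo K U U) {A : E2 → E2 →L[ℝ] E2} {κ : ℝ} (hκ0 : 0 ≤ κ) (hκ1 : κ < 1)
    (hA_κ : ∀ q ∈ U, ‖A q‖ ≤ κ) {k : ℕ} {CA CK : ℝ} (hA1 : Bd U k A CA)
    (hK2 : ∀ l, Bd U k (K^[l]) CK) : ∃ C, 0 ≤ C ∧ ∀ l, Bd U k (Ait K A l) C := by
  set L := (ContinuousLinearMap.compL ℝ E2 E2 E2).flip with hL
  have hnL : ‖L‖ ≤ 1 := by
    rw [hL, ContinuousLinearMap.opNorm_flip]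
    exact ContinuousLinearMap.norm_compL_le ℝ E2 E2 E2
  have h1 : ∀ l, Bd U k (fun q => L (A (K^[l] q))) (‖L‖ * (cc k CK * CA)) := fun l =>
    (Bd.comp hU hne (hKm.iterate l) hA1 (hK2 l)).clm hU L
  have h2 : ∀ l, ∀ q ∈ U, ‖L (A (K^[l] q))‖ ≤ κ := by
    intro l q hq
    refine (L.le_opNorm _).trans ?_
    have h3 := hA_κ _ (hKm.iterate l hq)
    calc ‖L‖ * ‖A (K^[l] q)‖ ≤ 1 * κ := by gcongr
      _ = κ := one_mul κ
  have h3 : ∀ l : ℕ, Bd U k ((fun (_ : ℕ) (_ : E2) => (0 : E2 →L[ℝ] E2)) l) 0 :=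
    fun l => Bd.zero le_rfl
  have h4 : Bd U k (Ait K A 0) ‖ContinuousLinearMap.id ℝ E2‖ := Bd.const _
  refine lin_rec hU hne hκ0 hκ1 k (G := Ait K A) (r := fun _ _ => 0)
    (A := fun l q => L (A (K^[l] q))) h1 h2 h3 h4 ?_
  intro l q _
  simp only [Ait, add_zero, hL, ContinuousLinearMap.flip_apply, ContinuousLinearMap.compL_apply]

/-- `b` is smooth with bounded derivatives -/
theorem b_sm (H : Half) {δ β : ℝ} (hδr : δ < H.r) (hβ : β < H.r) :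
    Sm (ball (0 : E2) δ ×ˢ ball (0 : E2) β) H.b :=
  sm_of_contDiffOn (isOpen_ball.prod isOpen_ball) (prod_open H)
    ((isCompact_closedBall (0 : E2) δ).prod (isCompact_closedBall (0 : E2) β))
    (Set.prod_mono ball_subset_closedBall ball_subset_closedBall)
    (Set.prod_mono (closedBall_subset_ball hδr) (closedBall_subset_ball hβ)) H.b_smooth

theorem K_maps (I : LInv H) {δ : ℝ} (hδε : δ ≤ I.ε) :
    MapsTo I.K (ball (0 : E2) δ) (ball (0 : E2) δ) := by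
  intro q hq
  rw [mem_ball_zero_iff] at hq ⊢
  have h2 := I.norm_K (ball_subset_ball hδε (mem_ball_zero_iff.2 hq))
  have h3 := I.κ_lt
  nlinarith [norm_nonneg q]

theorem linA_sm (I : LInv H) {δ : ℝ} (hδε : δ ≤ I.ε) (hδr : δ < H.r) :
    Sm (ball (0 : E2) δ) (linA H.b I.K) := by
  have hr : 0 < H.r / 2 := by linarith [H.r_pos]
  have h2 : Sm (ball (0 : E2) δ ×ˢ ball (0 : E2) (H.r / 2)) (P207N3H639.had2 H.b) :=
    (b_sm H hδr (by linarith)).had2 (isOpen_ball.prod isOpen_ball)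
      fun z hz s hs => ⟨hz.1, (Dom.ball (E := E2) hr).st _ hz.2 s hs⟩
  refine Sm.comp isOpen_ball (V := ball (0 : E2) δ ×ˢ ball (0 : E2) (H.r / 2))
    (f := fun q => (I.K q, (0 : E2))) ?_ h2
    ((I.K_sm.mono (ball_subset_ball hδε)).prodMk isOpen_ball Sm.zero)
  exact fun q hq => ⟨K_maps I hδε hq, mem_ball_self hr⟩

/-- **`Ctr` of a `Half`.** -/
theorem ctr_of (I : LInv H) (hM : ‖fderiv ℝ H.M 0‖ < 1) {κ : ℝ} (hκ0 : 0 ≤ κ) (hκ1 : κ < 1)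
    {δ : ℝ} (hδ0 : 0 < δ) (hδε : δ ≤ I.ε) (hδr : δ < H.r)
    (hA_κ : ∀ q ∈ ball (0 : E2) δ, ‖linA H.b I.K q‖ ≤ κ) :
    Ctr (ball (0 : E2) δ) I.K (linA H.b I.K) ‖fderiv ℝ H.M 0‖ := by
  refine ⟨norm_nonneg _, hM, K_maps I hδε, I.K_at_zero, I.K_sm.mono (ball_subset_ball hδε),
    linA_sm I hδε hδr, ?_, ?_⟩
  · intro k σ' hσ'
    exact I.K_iter hδ0 hδε hσ' k
  · intro k ρ'' hρ''
    obtain ⟨CA, hCA, hA1⟩ := linA_sm I hδε hδr k
    obtain ⟨CK, hCK, hK1⟩ := I.K_iter hδ0 hδε hM k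
    have hK2 : ∀ l, Bd (ball (0 : E2) δ) k (I.K^[l]) CK := fun l => by
      have := hK1 l
      rwa [one_pow, mul_one] at this
    obtain ⟨C, hC, h2⟩ := ait_bdd isOpen_ball ⟨0, mem_ball_self hδ0⟩ (K_maps I hδε) hκ0 hκ1
      hA_κ hA1 hK2
    exact ⟨C, hC, fun l => (h2 l).mono (le_mul_of_one_le_right hC (one_le_pow₀ hρ''.le))⟩

/-- `A (q, s)` is close to `K q` -/
theorem norm_A_sub_K (I : LInv H) {C : ℝ}
    (hC : Bd (ball (0 : E2) I.ε ×ˢ ball (0 : E2) I.ε) 1 I.A C) {q s : E2}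
    (hq : q ∈ ball (0 : E2) I.ε) (hs : s ∈ ball (0 : E2) I.ε) : ‖I.A (q, s) - I.K q‖ ≤ C * ‖s‖ := by
  have hC0 : 0 ≤ C := hC.nonneg ⟨(q, s), hq, hs⟩
  have h3 : ∀ x ∈ ball (0 : E2) I.ε, HasFDerivWithinAt (fun s => I.A (q, s))
      ((fderiv ℝ I.A (q, x)).comp (ContinuousLinearMap.inr ℝ E2 E2)) (ball (0 : E2) I.ε) x := by
    intro x hx
    have hz : (q, x) ∈ ball (0 : E2) I.ε ×ˢ ball (0 : E2) I.ε := mk_mem_prod hq hx
    exact (HasFDerivAt.comp (g := I.A) (f := fun s : E2 => (q, s)) x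
      (hC.1 (q, x) hz).hasFDerivAt
      (hasFDerivAt_prodMk_right (𝕜 := ℝ) q x)).hasFDerivWithinAt
  have h4 : ∀ x ∈ ball (0 : E2) I.ε,
      ‖(fderiv ℝ I.A (q, x)).comp (ContinuousLinearMap.inr ℝ E2 E2)‖ ≤ C := by
    intro x hx
    have hz : (q, x) ∈ ball (0 : E2) I.ε ×ˢ ball (0 : E2) I.ε := mk_mem_prod hq hx
    refine (ContinuousLinearMap.opNorm_comp_le _ _).trans ?_
    have e1 := hC.2.2.norm_le hz
    have e2 := ContinuousLinearMap.norm_inr_le_one ℝ E2 E2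
    calc ‖fderiv ℝ I.A (q, x)‖ * ‖ContinuousLinearMap.inr ℝ E2 E2‖ ≤ C * 1 := by gcongr
      _ = C := mul_one C
  have h5 := (convex_ball (0 : E2) I.ε).norm_image_sub_le_of_norm_hasFDerivWithin_le h3 h4
    (mem_ball_self I.ε_pos) hs
  rw [sub_zero] at h5
  exact h5

/-- the leaves of small labels are small -/
theorem grad_small (H : Half) {δ : ℝ} (hδ : δ < H.r) {β : ℝ} (hβ : 0 < β) :
    ∃ ε > 0, ∀ y ∈ ball (0 : E2) ε, ∀ q ∈ ball (0 : E2) δ, ‖∇ (H.S y) q‖ < β := by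
  obtain ⟨ε, hε, -, h⟩ := S_small H 1 hδ hβ
  refine ⟨ε, hε, fun y hy q hq => ?_⟩
  have h5 := h y hy q (ball_subset_closedBall hq)
  rw [gradient_eq_dl]
  show ‖dl (fderiv ℝ (H.S y) q)‖ < _
  rw [dl.norm_map, ← norm_iteratedFDeriv_one]
  exact h5

/-- the radius of the coefficient -/
theorem exists_ctr (I : LInv H) (hM : ‖fderiv ℝ H.M 0‖ < 1) :
    ∃ δ₀ > 0, ∀ δ, 0 < δ → δ ≤ δ₀ → δ ≤ I.ε → δ < H.r →
      Ctr (ball (0 : E2) δ) I.K (linA H.b I.K) ‖fderiv ℝ H.M 0‖ := by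
  obtain ⟨κ, hmκ, hκ1⟩ := exists_between hM
  have hκ0 : 0 ≤ κ := (norm_nonneg _).trans hmκ.le
  obtain ⟨η, hη0, hη⟩ := exists_between (sub_pos.2 hmκ)
  obtain ⟨ρ', hρ'0, hρ', hρ'h⟩ := exists_radius H hη0
  refine ⟨ρ', hρ'0, fun δ hδ0 hδρ' hδε hδr => ctr_of I hM hκ0 hκ1 hδ0 hδε hδr fun q hq => ?_⟩
  rw [linA_eq]
  have h2 : I.K q ∈ ball (0 : E2) δ := K_maps I hδε hq
  have h3 : (I.K q, (0 : E2)) ∈ ball (0 : E2) ρ' ×ˢ ball (0 : E2) ρ' :=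
    mk_mem_prod (ball_subset_ball hδρ' h2) (mem_ball_self hρ'0)
  have h4 := norm_bp_le H (hρ'h _ h3).2
  linarith

/-- **`LeafRec` and `Ctr` of a `Half`.** -/
theorem leafRec_of (I : LInv H) (hM : ‖fderiv ℝ H.M 0‖ < 1) {b : ℝ}
    (hb : ‖fderiv ℝ H.M 0‖ < b) (hb1 : b < 1) :
    ∃ δ₀ > 0, δ₀ ≤ I.ε ∧ δ₀ < H.ρ ∧ ∀ δ, 0 < δ → δ ≤ δ₀ →
      Ctr (ball (0 : E2) δ) I.K (linA H.b I.K) ‖fderiv ℝ H.M 0‖ ∧
      ∃ ε > 0, ∃ β > 0, ∃ β' > 0, ε ≤ I.ε ∧ ε < H.ρ ∧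
      (∀ y ∈ ball (0 : E2) ε, ∀ n, H.M^[n] y ∈ ball (0 : E2) ε ∧ ‖H.M^[n] y‖ ≤ b ^ n * ‖y‖) ∧
      (∀ y ∈ ball (0 : E2) ε, ∀ k : ℕ, ∃ C, 0 ≤ C ∧
        ∀ n, Bd (ball (0 : E2) δ) k (∇ (H.S (H.M^[n] y))) (C * b ^ n)) ∧
      ∀ (Y : Type) (lab : Y → E2), (∀ y, lab y ∈ ball (0 : E2) ε) → ∀ 𝒢 : Gr Y, b ≤ 𝒢.b →
        LeafRec 𝒢 (ball (0 : E2) δ) δ (ball (0 : E2) β) β (ball (0 : E2) β') β' I.A H.b I.K
          (fun y n => ∇ (H.S (H.M^[n] (lab y)))) := by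
  have hb0 : 0 < b := (norm_nonneg _).trans_lt hb
  obtain ⟨δ₁, hδ₁0, hδ₁ε, hδ₁ρ, h₁⟩ := leaf_rec I hM hb
  obtain ⟨ρ', hρ'0, hctr⟩ := exists_ctr I hM
  refine ⟨min δ₁ ρ', lt_min hδ₁0 hρ'0, (min_le_left _ _).trans hδ₁ε,
    (min_le_left _ _).trans_lt hδ₁ρ, fun δ hδ0 hδ => ?_⟩
  have hδ₁ : δ ≤ δ₁ := hδ.trans (min_le_left _ _)
  have hδε : δ ≤ I.ε := hδ₁.trans hδ₁ε
  have hδr : δ < H.r := hδ₁.trans_lt (hδ₁ρ.trans_le H.ρ_le)
  refine ⟨hctr δ hδ0 (hδ.trans (min_le_right _ _)) hδε hδr, ?_⟩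
  have hsubU : ball (0 : E2) δ ⊆ ball (0 : E2) I.ε := ball_subset_ball hδε
  have hKm : MapsTo I.K (ball (0 : E2) δ) (ball (0 : E2) δ) := K_maps I hδε
  obtain ⟨ε₁, hε₁0, hε₁, hε₁ρ, h₂⟩ := h₁ δ hδ0 hδ₁
  -- the radii
  obtain ⟨C, hC0, hC⟩ := I.A_sm 1
  have hκ1 := I.κ_lt
  have hβ'0 : 0 < (1 - I.κ) * δ := mul_pos (by linarith) hδ0
  obtain ⟨β', hβ'⟩ : ∃ β', β' = (1 - I.κ) * δ := ⟨_, rfl⟩
  rw [← hβ'] at hβ'0
  obtain ⟨β, hβ0, hβε, hβr, hβC⟩ : ∃ β > 0, β ≤ I.ε ∧ β < H.r ∧ (C + 1) * β ≤ β' := by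
    refine ⟨min (min I.ε (H.r / 2)) (β' / (C + 1)),
      lt_min (lt_min I.ε_pos (by linarith [H.r_pos])) (by positivity),
      (min_le_left _ _).trans (min_le_left _ _),
      ((min_le_left _ _).trans (min_le_right _ _)).trans_lt (by linarith [H.r_pos]), ?_⟩
    have : min (min I.ε (H.r / 2)) (β' / (C + 1)) ≤ β' / (C + 1) := min_le_right _ _
    rw [le_div_iff₀ (by positivity)] at this
    linarith
  have hWsub : ball (0 : E2) δ ×ˢ ball (0 : E2) β ⊆ ball (0 : E2) I.ε ×ˢ ball (0 : E2) I.ε :=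
    Set.prod_mono hsubU (ball_subset_ball hβε)
  have hAK : ∀ q ∈ ball (0 : E2) δ, ∀ s ∈ ball (0 : E2) β, ‖I.A (q, s) - I.K q‖ < β' := by
    intro q hq s hs
    have h5 := norm_A_sub_K I hC (hsubU hq) (ball_subset_ball hβε hs)
    have h6 := mem_ball_zero_iff.1 hs
    have h7 := mul_le_mul_of_nonneg_left h6.le hC0
    linarith
  obtain ⟨ε₂, hε₂, h₃⟩ := grad_small H hδr hβ0
  obtain ⟨ε, hε⟩ : ∃ ε, ε = min ε₁ ε₂ := ⟨_, rfl⟩
  have hε0 : 0 < ε := by rw [hε]; exact lt_min hε₁0 hε₂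
  have he1 : ε ≤ ε₁ := by rw [hε]; exact min_le_left _ _
  have he2 : ε ≤ ε₂ := by rw [hε]; exact min_le_right _ _
  have horb : ∀ y ∈ ball (0 : E2) ε, ∀ n, H.M^[n] y ∈ ball (0 : E2) ε ∧
      ‖H.M^[n] y‖ ≤ b ^ n * ‖y‖ := by
    intro y hy n
    obtain ⟨-, hdec, -⟩ := h₂ y (ball_subset_ball he1 hy)
    refine ⟨?_, hdec n⟩
    rw [mem_ball_zero_iff]
    have h5 : b ^ n ≤ 1 := pow_le_one₀ hb0.le hb1.le
    have h6 := mem_ball_zero_iff.1 hy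
    have h7 := hdec n
    have h8 := mul_le_mul_of_nonneg_right h5 (norm_nonneg y)
    linarith
  have hsm : ∀ y ∈ ball (0 : E2) ε, ∀ n, ∀ q ∈ ball (0 : E2) δ,
      ‖∇ (H.S (H.M^[n] y)) q‖ < β := fun y hy n q hq =>
    h₃ _ (ball_subset_ball he2 (horb y hy n).1) q hq
  have hbd : ∀ y ∈ ball (0 : E2) ε, ∀ k : ℕ, ∃ C, 0 ≤ C ∧
        ∀ n, Bd (ball (0 : E2) δ) k (∇ (H.S (H.M^[n] y))) (C * b ^ n) := fun y hy =>
    (h₂ y (ball_subset_ball he1 hy)).2.2.2.2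
  refine ⟨ε, hε0, β, hβ0, β', hβ'0, he1.trans hε₁, he1.trans_lt hε₁ρ,
    horb, hbd, fun Y lab hlab 𝒢 h𝒢 => ?_⟩
  have hKp : ∀ q ∈ ball (0 : E2) δ, ∀ p ∈ ball (0 : E2) β', I.K q + p ∈ ball (0 : E2) δ := by
    intro q hq p hp
    rw [mem_ball_zero_iff] at hq hp ⊢
    have h3 := I.norm_K (hsubU (mem_ball_zero_iff.2 hq))
    have h4 := norm_add_le (I.K q) p
    have h5 := mul_le_mul_of_nonneg_left hq.le I.κ_pos.le
    linarith
  have hAm : ∀ q ∈ ball (0 : E2) δ, ∀ s ∈ ball (0 : E2) β, I.A (q, s) ∈ ball (0 : E2) δ := by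
    intro q hq s hs
    have h3 := hKp q hq (I.A (q, s) - I.K q) (mem_ball_zero_iff.2 (hAK q hq s hs))
    have e : I.K q + (I.A (q, s) - I.K q) = I.A (q, s) := by abel
    rwa [e] at h3
  exact {
    dom := Dom.ball hδ0
    domB := Dom.ball hβ0
    domB' := Dom.ball hβ'0
    ab_sm := I.A_sm.mono hWsub
    bb_sm := b_sm H hδr hβr
    ab_maps := fun z hz => hAm z.1 hz.1 z.2 hz.2
    ab_zero := fun q _ => rfl
    bb_zero := fun q hq => H.b_zero q (ball_subset_ball hδr.le hq)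
    K_sm := I.K_sm.mono hsubU
    K_maps := hKm
    margin := hKp
    g_mem := fun y n q hq => mem_ball_zero_iff.2 (hsm _ (hlab y) n q hq)
    inc_mem := fun y n q hq => mem_ball_zero_iff.2
      (hAK q hq _ (mem_ball_zero_iff.2 (hsm _ (hlab y) (n + 1) q hq)))
    g_small := by
      intro y ρ'' hρ'' k
      obtain ⟨C', hC', h5⟩ := hbd _ (hlab y) k
      refine ⟨C', hC', fun n => (h5 n).mono ?_⟩
      have : b ^ n ≤ ρ'' ^ n := pow_le_pow_left₀ hb0.le (h𝒢.trans hρ''.le) n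
      exact mul_le_mul_of_nonneg_left this hC'
    step := by
      intro y n q hq
      exact ((h₂ _ (ball_subset_ball he1 (hlab y))).2.2.2.1 n q hq).2.2 }

end Vale.Agent.P207.N3.H629
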