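import Vale.Agent.P207.N3.H629.LRec
import Vale.Agent.P207.N3.H639.Exp
import Vale.Agent.P207.N3.H790.NF
import Vale.Agent.P207.N3.H547.Case2

/-!
# P207, line N3, P17 (ii): a `Half` with a triangular normal form

`H.N (q) = (μ₁ q₀ + a q₁^k, μ₂ q₁)` near the origin, `k ≥ 2` or `a = 0`: then `‖DM(0)‖ ≤ |μ₂|⁻¹`,
`K = N⁻¹` explicitly, and the images of the gradients of monomials are polynomials.
-/

set_option maxSynthPendingDepth 3

open Set Filter Topology Metric InnerProductSpace MeasureTheory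
open scoped ContDiff RealInnerProductSpace Gradient

noncomputable section

namespace Vale.Agent.P207.N3.H629

open P207N3H639 H790 H547

variable {H : Half}

/-- The normal form of a `Half`: `N = tri μ₁ μ₂ a k`, not a Jordan block. -/
structure TriN (H : Half) (μ₁ μ₂ a : ℝ) (k : ℕ) : Prop where
  ok : (NF.tri μ₁ μ₂ a k).OK
  two : a ≠ 0 → 2 ≤ k
  eq : ∀ q ∈ ball (0 : E2) H.r, H.N q = (NF.tri μ₁ μ₂ a k).fn q

theorem hasFDerivAt_coord (i : Fin 2) (q : E2) :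
    HasFDerivAt (fun q : E2 => q i) (EuclideanSpace.proj i : E2 →L[ℝ] ℝ) q :=
  (EuclideanSpace.proj i : E2 →L[ℝ] ℝ).hasFDerivAt

theorem prj_apply (i : Fin 2) (v : E2) : (EuclideanSpace.proj i : E2 →L[ℝ] ℝ) v = v i := rfl

namespace TriN

variable {μ₁ μ₂ a : ℝ} {k : ℕ}

theorem ne1 (T : TriN H μ₁ μ₂ a k) : μ₁ ≠ 0 := (NF.ne_of_OK T.ok).1

theorem ne2 (T : TriN H μ₁ μ₂ a k) : μ₂ ≠ 0 := (NF.ne_of_OK T.ok).2

/-- the derivative of `N` at the origin is diagonal -/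
theorem La_apply' (T : TriN H μ₁ μ₂ a k) (v : E2) : La H v = !₂[μ₁ * v 0, μ₂ * v 1] := by
  have hev : H.N =ᶠ[𝓝 0] (NF.tri μ₁ μ₂ a k).fn := by
    filter_upwards [ball_mem_nhds (0 : E2) H.r_pos] with q hq using T.eq q hq
  rw [La_eq, hev.fderiv_eq]
  have hd : DifferentiableAt ℝ (NF.tri μ₁ μ₂ a k).fn 0 := by
    rw [differentiableAt_euclidean]
    intro i
    fin_cases i
    · exact (((hasFDerivAt_coord 0 0).const_mul μ₁).add
        (((hasFDerivAt_coord 1 0).pow k).const_mul a)).differentiableAt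
    · exact ((hasFDerivAt_coord 1 0).const_mul μ₂).differentiableAt
  have key : ∀ i : Fin 2, (fderiv ℝ (NF.tri μ₁ μ₂ a k).fn 0 v) i =
      fderiv ℝ (fun q => (NF.tri μ₁ μ₂ a k).fn q i) 0 v := by
    intro i
    have h2 := ((EuclideanSpace.proj i : E2 →L[ℝ] ℝ).hasFDerivAt.comp (0 : E2)
      hd.hasFDerivAt).fderiv
    have h3 : fderiv ℝ (fun q => (NF.tri μ₁ μ₂ a k).fn q i) 0 =
      (EuclideanSpace.proj i : E2 →L[ℝ] ℝ) ∘L fderiv ℝ (NF.tri μ₁ μ₂ a k).fn 0 := h2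
    rw [h3]
    rfl
  have hpow : a * ((k : ℝ) * (0 : E2) 1 ^ (k - 1)) = 0 := by
    rcases eq_or_ne a 0 with h | h
    · rw [h, zero_mul]
    · have h2 := T.two h
      have : (0 : E2) 1 ^ (k - 1) = 0 := by
        show (0 : ℝ) ^ (k - 1) = 0
        exact zero_pow (by omega)
      rw [this, mul_zero, mul_zero]
  apply NF.ext2
  · rw [key 0]
    have h := ((hasFDerivAt_coord 0 (0 : E2)).const_mul μ₁).add
      (((hasFDerivAt_coord 1 (0 : E2)).pow k).const_mul a)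
    have e : fderiv ℝ (fun q => (NF.tri μ₁ μ₂ a k).fn q 0) 0 = _ := h.fderiv
    rw [e]
    have e2 : ∀ c : ℝ, a * (((k : ℝ) * (0 : E2) 1 ^ (k - 1)) * c) = 0 := by
      intro c; rw [← mul_assoc, hpow, zero_mul]
    simp only [_root_.add_apply, _root_.smul_apply, smul_eq_mul, prj_apply,
      nsmul_eq_mul]
    simp only [e2, add_zero]
    rfl
  · rw [key 1]
    have h := (hasFDerivAt_coord 1 (0 : E2)).const_mul μ₂
    have e : fderiv ℝ (fun q => (NF.tri μ₁ μ₂ a k).fn q 1) 0 = _ := h.fderiv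
    rw [e]
    simp only [_root_.smul_apply, smul_eq_mul, prj_apply]
    rfl

/-- `DM(0) v = (v₀ / μ₁, v₁ / μ₂)` -/
theorem DM_apply (T : TriN H μ₁ μ₂ a k) (v : E2) :
    fderiv ℝ H.M 0 v = !₂[μ₁⁻¹ * v 0, μ₂⁻¹ * v 1] := by
  have h0 := dual H (EuclideanSpace.single 0 1) v
  have h1 := dual H (EuclideanSpace.single 1 1) v
  rw [T.La_apply'] at h0 h1
  simp only [PiLp.inner_apply, Fin.sum_univ_two, RCLike.inner_apply, conj_trivial] at h0 h1
  simp at h0 h1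
  apply NF.ext2
  · show fderiv ℝ H.M 0 v 0 = μ₁⁻¹ * v 0
    have := T.ne1
    field_simp
    linarith
  · show fderiv ℝ H.M 0 v 1 = μ₂⁻¹ * v 1
    have := T.ne2
    field_simp
    linarith

theorem norm_DM_le (T : TriN H μ₁ μ₂ a k) : ‖fderiv ℝ H.M 0‖ ≤ |μ₂|⁻¹ := by
  obtain ⟨h1, h2, -⟩ := T.ok
  have hp : 0 < |μ₂| := by linarith
  refine ContinuousLinearMap.opNorm_le_bound _ (by positivity) fun v => ?_
  rw [T.DM_apply]
  have h3 : |μ₁|⁻¹ ≤ |μ₂|⁻¹ := by gcongr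
  rw [EuclideanSpace.norm_eq, EuclideanSpace.norm_eq, ← Real.sqrt_sq (by positivity : 0 ≤ |μ₂|⁻¹),
    ← Real.sqrt_mul (by positivity)]
  refine Real.sqrt_le_sqrt ?_
  simp only [Fin.sum_univ_two]
  have e0 : ‖(!₂[μ₁⁻¹ * v 0, μ₂⁻¹ * v 1] : E2) 0‖ = |μ₁|⁻¹ * ‖v 0‖ := by
    show ‖μ₁⁻¹ * v 0‖ = _
    rw [norm_mul, norm_inv, Real.norm_eq_abs μ₁]
  have e1 : ‖(!₂[μ₁⁻¹ * v 0, μ₂⁻¹ * v 1] : E2) 1‖ = |μ₂|⁻¹ * ‖v 1‖ := by
    show ‖μ₂⁻¹ * v 1‖ = _
    rw [norm_mul, norm_inv, Real.norm_eq_abs μ₂]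
  rw [e0, e1]
  have h4 : |μ₁|⁻¹ * ‖v 0‖ ≤ |μ₂|⁻¹ * ‖v 0‖ := by gcongr
  have h5 : (|μ₁|⁻¹ * ‖v 0‖) ^ 2 ≤ (|μ₂|⁻¹ * ‖v 0‖) ^ 2 :=
    pow_le_pow_left₀ (by positivity) h4 2
  calc _ ≤ (|μ₂|⁻¹ * ‖v 0‖) ^ 2 + (|μ₂|⁻¹ * ‖v 1‖) ^ 2 := by linarith
    _ = _ := by ring

theorem norm_DM_lt (T : TriN H μ₁ μ₂ a k) : ‖fderiv ℝ H.M 0‖ < 1 :=
  T.norm_DM_le.trans_lt (inv_lt_one_of_one_lt₀ T.ok.1)

/-- `K` explicitly -/
theorem K_eq (T : TriN H μ₁ μ₂ a k) (I : LInv H) {q : E2} (hq : q ∈ ball (0 : E2) I.ε) :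
    I.K q = (NF.tri μ₁ μ₂ a k).inv q := by
  have h2 : I.K q ∈ ball (0 : E2) H.r :=
    ball_subset_ball (I.ρ_lt.le.trans H.ρ_le) (I.A_mem _ (I.mem0 hq))
  have h1 := I.N_K hq
  rw [T.eq _ h2] at h1
  rw [← h1, NF.inv_fn T.ok, h1]

/-- the inverse normal form has an explicit derivative -/
theorem hasFDerivAt_inv (μ₁ μ₂ a : ℝ) (k : ℕ) (q : E2) :
    DifferentiableAt ℝ (NF.tri μ₁ μ₂ a k).inv q ∧ ∀ v : E2,
      fderiv ℝ (NF.tri μ₁ μ₂ a k).inv q v =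
        !₂[μ₁⁻¹ * (v 0 - a * (k * (μ₂⁻¹ * q 1) ^ (k - 1) * (μ₂⁻¹ * v 1))), μ₂⁻¹ * v 1] := by
  have c0 := ((hasFDerivAt_coord 0 q).sub
    ((((hasFDerivAt_coord 1 q).const_mul μ₂⁻¹).pow k).const_mul a)).const_mul μ₁⁻¹
  have c1 := (hasFDerivAt_coord 1 q).const_mul μ₂⁻¹
  have hd : DifferentiableAt ℝ (NF.tri μ₁ μ₂ a k).inv q := by
    rw [differentiableAt_euclidean]
    intro i
    fin_cases i
    · exact c0.differentiableAt
    · exact c1.differentiableAt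
  refine ⟨hd, fun v => ?_⟩
  have key : ∀ i : Fin 2, (fderiv ℝ (NF.tri μ₁ μ₂ a k).inv q v) i =
      fderiv ℝ (fun q => (NF.tri μ₁ μ₂ a k).inv q i) q v := by
    intro i
    have h2 := ((EuclideanSpace.proj i : E2 →L[ℝ] ℝ).hasFDerivAt.comp q hd.hasFDerivAt).fderiv
    have h3 : fderiv ℝ (fun q => (NF.tri μ₁ μ₂ a k).inv q i) q =
      (EuclideanSpace.proj i : E2 →L[ℝ] ℝ) ∘L fderiv ℝ (NF.tri μ₁ μ₂ a k).inv q := h2
    rw [h3]
    rfl
  apply NF.ext2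
  · rw [key 0]
    have e : fderiv ℝ (fun q => (NF.tri μ₁ μ₂ a k).inv q 0) q = _ := c0.fderiv
    rw [e]
    simp only [_root_.sub_apply, _root_.smul_apply, smul_eq_mul, prj_apply,
      nsmul_eq_mul]
    show _ = μ₁⁻¹ * (v 0 - a * (k * (μ₂⁻¹ * q 1) ^ (k - 1) * (μ₂⁻¹ * v 1)))
    ring
  · rw [key 1]
    have e : fderiv ℝ (fun q => (NF.tri μ₁ μ₂ a k).inv q 1) q = _ := c1.fderiv
    rw [e]
    simp only [_root_.smul_apply, smul_eq_mul, prj_apply]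
    rfl

/-- the linear part of the leaf recursion, explicitly -/
theorem linA_apply (T : TriN H μ₁ μ₂ a k) (I : LInv H) {q : E2} (hq : q ∈ ball (0 : E2) I.ε)
    (w : E2) : linA H.b I.K q w =
      !₂[μ₁⁻¹ * w 0, μ₂⁻¹ * w 1 - μ₁⁻¹ * a * k * (μ₂⁻¹ * q 1) ^ (k - 1) * μ₂⁻¹ * w 0] := by
  rw [linA_adjoint I hq]
  have hev : I.K =ᶠ[𝓝 q] (NF.tri μ₁ μ₂ a k).inv := by
    filter_upwards [isOpen_ball.mem_nhds hq] with x hx using T.K_eq I hx
  rw [hev.fderiv_eq]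
  refine ext_inner_right ℝ fun v => ?_
  rw [ContinuousLinearMap.adjoint_inner_left, (hasFDerivAt_inv μ₁ μ₂ a k q).2 v]
  simp only [PiLp.inner_apply, Fin.sum_univ_two, RCLike.inner_apply, conj_trivial]
  simp
  ring

end TriN

/-! ### polynomials along rays -/

/-- `f` is a polynomial of degree `≤ d` -/
def PolyD (d : ℕ) (f : ℝ → ℝ) : Prop := ∃ P : Polynomial ℝ, P.natDegree ≤ d ∧ ∀ s, f s = P.eval s

theorem PolyD.mono {d e : ℕ} (h : d ≤ e) {f : ℝ → ℝ} (hf : PolyD d f) : PolyD e f :=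
  let ⟨P, h1, h2⟩ := hf
  ⟨P, h1.trans h, h2⟩

theorem PolyD.const (c : ℝ) : PolyD 0 (fun _ => c) := ⟨Polynomial.C c, by simp, fun s => by simp⟩

theorem PolyD.id : PolyD 1 (fun s => s) := ⟨Polynomial.X, by simp, fun s => by simp⟩

theorem PolyD.add {d : ℕ} {f g : ℝ → ℝ} (hf : PolyD d f) (hg : PolyD d g) :
    PolyD d (fun s => f s + g s) :=
  let ⟨P, h1, h2⟩ := hf
  let ⟨Q, h3, h4⟩ := hg
  ⟨P + Q, (Polynomial.natDegree_add_le P Q).trans (max_le h1 h3), fun s => by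
    show f s + g s = _
    rw [Polynomial.eval_add, h2, h4]⟩

theorem PolyD.sub {d : ℕ} {f g : ℝ → ℝ} (hf : PolyD d f) (hg : PolyD d g) :
    PolyD d (fun s => f s - g s) :=
  let ⟨P, h1, h2⟩ := hf
  let ⟨Q, h3, h4⟩ := hg
  ⟨P - Q, (Polynomial.natDegree_sub_le P Q).trans (max_le h1 h3), fun s => by
    show f s - g s = _
    rw [Polynomial.eval_sub, h2, h4]⟩

theorem PolyD.mul {d e : ℕ} {f g : ℝ → ℝ} (hf : PolyD d f) (hg : PolyD e g) :
    PolyD (d + e) (fun s => f s * g s) :=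
  let ⟨P, h1, h2⟩ := hf
  let ⟨Q, h3, h4⟩ := hg
  ⟨P * Q, Polynomial.natDegree_mul_le.trans (add_le_add h1 h3), fun s => by
    show f s * g s = _
    rw [Polynomial.eval_mul, h2, h4]⟩

theorem PolyD.pow {d : ℕ} {f : ℝ → ℝ} (hf : PolyD d f) (n : ℕ) :
    PolyD (n * d) (fun s => f s ^ n) :=
  let ⟨P, h1, h2⟩ := hf
  ⟨P ^ n, Polynomial.natDegree_pow_le.trans (Nat.mul_le_mul_left n h1), fun s => by
    show f s ^ n = _
    rw [Polynomial.eval_pow, h2]⟩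

theorem PolyD.cmul {d : ℕ} {f : ℝ → ℝ} (hf : PolyD d f) (c : ℝ) : PolyD d (fun s => c * f s) := by
  have := (PolyD.const c).mul hf
  rwa [zero_add] at this

theorem PolyD.dv {d : ℕ} {f : ℝ → ℝ} (hf : PolyD d f) (n : ℕ) :
    PolyD (n * d) (fun s => H547.dv n (f s)) := by
  have := (hf.pow n).cmul ((n.factorial : ℝ)⁻¹)
  refine ⟨this.choose, this.choose_spec.1, fun s => ?_⟩
  rw [← this.choose_spec.2 s]
  show f s ^ n / (n.factorial : ℝ) = (n.factorial : ℝ)⁻¹ * f s ^ n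
  rw [div_eq_inv_mul]

theorem PolyD.dv' {d : ℕ} {f : ℝ → ℝ} (hf : PolyD d f) (n : ℕ) :
    PolyD ((n - 1) * d) (fun s => H547.dv' n (f s)) := by
  cases n with
  | zero => exact (PolyD.const 0).mono (Nat.zero_le _)
  | succ n => exact hf.dv n

/-- polynomials of degree `≤ d < J` along rays -/
theorem rayPoly_of {U : Set E2} {J d : ℕ} (hd : d < J) {p : E2 → E2}
    (h : ∀ q ∈ U, ∃ f0 f1 : ℝ → ℝ, PolyD d f0 ∧ PolyD d f1 ∧ ∀ s ∈ Ioc (0 : ℝ) 1,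
      p (s • q) = !₂[f0 s, f1 s]) : RayPoly U J p := by
  intro q hq
  obtain ⟨f0, f1, ⟨P, hP, hf0⟩, ⟨Q, hQ, hf1⟩, h1⟩ := h q hq
  refine ⟨fun i => !₂[P.coeff i, Q.coeff i], fun s hs => ?_⟩
  rw [h1 s hs, hf0, hf1, Polynomial.eval_eq_sum_range' (hP.trans_lt hd),
    Polynomial.eval_eq_sum_range' (hQ.trans_lt hd)]
  apply NF.ext2
  · show ∑ i ∈ Finset.range J, P.coeff i * s ^ i = (∑ i ∈ Finset.range J,
      s ^ i • (!₂[P.coeff i, Q.coeff i] : E2)) 0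
    rw [WithLp.ofLp_sum, Finset.sum_apply]
    exact Finset.sum_congr rfl fun i _ => by
      show P.coeff i * s ^ i = s ^ i * P.coeff i
      ring
  · show ∑ i ∈ Finset.range J, Q.coeff i * s ^ i = (∑ i ∈ Finset.range J,
      s ^ i • (!₂[P.coeff i, Q.coeff i] : E2)) 1
    rw [WithLp.ofLp_sum, Finset.sum_apply]
    exact Finset.sum_congr rfl fun i _ => by
      show Q.coeff i * s ^ i = s ^ i * Q.coeff i
      ring

/-- the gradients of monomials are polynomials along rays -/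
theorem rayPoly_gm {U : Set E2} {J : ℕ} {a : ℕ × ℕ} (ha : a.1 + a.2 ≤ J) (ha0 : a ≠ (0, 0)) :
    RayPoly U J (gm a) := by
  have hJ : a.1 + a.2 - 1 < J := by
    have : a.1 + a.2 ≠ 0 := by
      intro h
      exact ha0 (Prod.ext (by simp; omega) (by simp; omega))
    omega
  refine rayPoly_of hJ fun q _ => ?_
  have h0 : PolyD 1 (fun s => s * q 0) := by simpa using PolyD.id.mul (PolyD.const (q 0))
  have h1 : PolyD 1 (fun s => s * q 1) := by simpa using PolyD.id.mul (PolyD.const (q 1))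
  have z : ∀ n : ℕ, ∀ f g : ℝ → ℝ, ∀ m, PolyD (n - 1) (fun s => H547.dv' n (f s)) →
      PolyD m g → PolyD (n + m - 1) (fun s => H547.dv' n (f s) * g s) := by
    intro n f g m hf hg
    cases n with
    | zero =>
      have : (fun s => H547.dv' 0 (f s) * g s) = fun _ => (0 : ℝ) := by
        funext s; simp [H547.dv']
      rw [this]
      exact (PolyD.const 0).mono (Nat.zero_le _)
    | succ n => exact (hf.mul hg).mono (by omega)
  refine ⟨fun s => H547.dv' a.1 (s * q 0) * H547.dv a.2 (s * q 1),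
    fun s => H547.dv' a.2 (s * q 1) * H547.dv a.1 (s * q 0), ?_, ?_, fun s _ => ?_⟩
  · exact z a.1 _ _ a.2 (by simpa using h0.dv' a.1) (by simpa using h1.dv a.2)
  · have := z a.2 _ _ a.1 (by simpa using h1.dv' a.2) (by simpa using h0.dv a.1)
    rwa [add_comm a.2 a.1] at this
  · apply NF.ext2
    · rfl
    · show H547.dv a.1 (s * q 0) * H547.dv' a.2 (s * q 1) = _
      exact mul_comm _ _

/-- **(T2)** the images of the gradients of monomials under the linear part are polynomials. -/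
theorem TriN.rayPoly_linA {μ₁ μ₂ c : ℝ} {k : ℕ} (T : TriN H μ₁ μ₂ c k) (I : LInv H) {δ : ℝ}
    (hδ : δ ≤ I.ε) {J : ℕ} {a : ℕ × ℕ} (ha0 : a ≠ (0, 0))
    (ha : a.1 + a.2 ≤ J) (hak : c ≠ 0 → k * a.1 + a.2 ≤ J) :
    RayPoly (ball (0 : E2) δ) J (fun q => linA H.b I.K q (gm a (I.K q))) := by
  have hne : a.1 + a.2 ≠ 0 := by
    intro h
    exact ha0 (Prod.ext (by simp; omega) (by simp; omega))
  -- the degree
  obtain ⟨κ, hκ1, hκJ, hκc⟩ : ∃ κ : ℕ, 1 ≤ κ ∧ κ * a.1 + a.2 ≤ J ∧ (c ≠ 0 → κ = k) := by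
    rcases eq_or_ne c 0 with h | h
    · exact ⟨1, le_rfl, by omega, fun h' => absurd h h'⟩
    · exact ⟨k, by have := T.two h; omega, hak h, fun _ => rfl⟩
  have hd : κ * a.1 + a.2 - 1 < J := by
    have h1 : a.1 ≤ κ * a.1 := Nat.le_mul_of_pos_left _ (by omega)
    omega
  refine rayPoly_of hd fun q hq => ?_
  have h0 : PolyD 1 (fun s => s * q 0) := by simpa using PolyD.id.mul (PolyD.const (q 0))
  have h1 : PolyD 1 (fun s => s * q 1) := by simpa using PolyD.id.mul (PolyD.const (q 1))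
  -- the coordinates of `K (s q)`
  have hk : PolyD κ (fun s => c * (μ₂⁻¹ * (s * q 1)) ^ k) := by
    rcases eq_or_ne c 0 with h | h
    · have : (fun s : ℝ => c * (μ₂⁻¹ * (s * q 1)) ^ k) = fun _ => (0 : ℝ) := by
        funext s; rw [h, zero_mul]
      rw [this]; exact (PolyD.const 0).mono (Nat.zero_le _)
    · rw [hκc h]
      simpa using ((h1.cmul μ₂⁻¹).pow k).cmul c
  have hK0 : PolyD κ (fun s => μ₁⁻¹ * (s * q 0 - c * (μ₂⁻¹ * (s * q 1)) ^ k)) :=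
    ((h0.mono hκ1).sub hk).cmul _
  have hK1 : PolyD 1 (fun s => μ₂⁻¹ * (s * q 1)) := h1.cmul _
  set x0 : ℝ → ℝ := fun s => μ₁⁻¹ * (s * q 0 - c * (μ₂⁻¹ * (s * q 1)) ^ k) with hx0
  set x1 : ℝ → ℝ := fun s => μ₂⁻¹ * (s * q 1) with hx1
  -- `w0 = dv' a₀ (x0) dv a₁ (x1)`, `w1 = dv a₀ (x0) dv' a₁ (x1)`
  have hw0 : PolyD (κ * a.1 + a.2 - κ) (fun s => H547.dv' a.1 (x0 s) * H547.dv a.2 (x1 s)) := by
    rcases Nat.eq_zero_or_pos a.1 with h | h
    · have : (fun s => H547.dv' a.1 (x0 s) * H547.dv a.2 (x1 s)) = fun _ => (0 : ℝ) := by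
        funext s; rw [h]; simp [H547.dv']
      rw [this]; exact (PolyD.const 0).mono (Nat.zero_le _)
    · obtain ⟨n, hn⟩ := Nat.exists_eq_add_of_le' h
      refine ((hK0.dv' a.1).mul (hK1.dv a.2)).mono ?_
      rw [hn]
      simp only [Nat.add_sub_cancel, mul_one]
      have : κ * (n + 1) + a.2 - κ = κ * n + a.2 := by
        rw [Nat.mul_add, mul_one]; omega
      rw [this, mul_comm n κ]
  have hw1 : PolyD (κ * a.1 + a.2 - 1) (fun s => H547.dv a.1 (x0 s) * H547.dv' a.2 (x1 s)) := by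
    rcases Nat.eq_zero_or_pos a.2 with h | h
    · have : (fun s => H547.dv a.1 (x0 s) * H547.dv' a.2 (x1 s)) = fun _ => (0 : ℝ) := by
        funext s; rw [h]; simp [H547.dv']
      rw [this]; exact (PolyD.const 0).mono (Nat.zero_le _)
    · refine ((hK0.dv a.1).mul (hK1.dv' a.2)).mono ?_
      rw [mul_one, mul_comm a.1 κ]
      omega
  have hκa : κ * a.1 + a.2 - κ ≤ κ * a.1 + a.2 - 1 := by omega
  have hx1p : PolyD (κ - 1) (fun s => c * (k : ℝ) * x1 s ^ (k - 1)) := by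
    rcases eq_or_ne c 0 with h | h
    · have : (fun s : ℝ => c * (k : ℝ) * x1 s ^ (k - 1)) = fun _ => (0 : ℝ) := by
        funext s; rw [h, zero_mul, zero_mul]
      rw [this]; exact (PolyD.const 0).mono (Nat.zero_le _)
    · rw [hκc h]
      simpa using (hK1.pow (k - 1)).cmul (c * k)
  refine ⟨fun s => μ₁⁻¹ * (H547.dv' a.1 (x0 s) * H547.dv a.2 (x1 s)),
    fun s => μ₂⁻¹ * (H547.dv a.1 (x0 s) * H547.dv' a.2 (x1 s)) -
      (μ₁⁻¹ * μ₂⁻¹) * ((c * (k : ℝ) * x1 s ^ (k - 1)) *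
        (H547.dv' a.1 (x0 s) * H547.dv a.2 (x1 s))), (hw0.mono hκa).cmul _, ?_, fun s hs => ?_⟩
  · refine (hw1.cmul _).sub (PolyD.cmul ?_ _)
    rcases Nat.eq_zero_or_pos a.1 with h | h
    · have : (fun s => (c * (k : ℝ) * x1 s ^ (k - 1)) *
          (H547.dv' a.1 (x0 s) * H547.dv a.2 (x1 s))) = fun _ => (0 : ℝ) := by
        funext s; rw [h]; simp [H547.dv']
      rw [this]; exact (PolyD.const 0).mono (Nat.zero_le _)
    · refine (hx1p.mul hw0).mono ?_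
      have h2 : κ ≤ κ * a.1 := Nat.le_mul_of_pos_right _ h
      omega
  · have hsq : s • q ∈ ball (0 : E2) I.ε := by
      have hq' := mem_ball_zero_iff.1 hq
      rw [mem_ball_zero_iff, norm_smul, Real.norm_eq_abs, abs_of_pos hs.1]
      exact (mul_le_of_le_one_left (norm_nonneg _) hs.2).trans_lt (hq'.trans_le hδ)
    show linA H.b I.K (s • q) (gm a (I.K (s • q))) = _
    rw [T.K_eq I hsq, T.linA_apply I hsq]
    have e0 : (NF.tri μ₁ μ₂ c k).inv (s • q) 0 = x0 s := rfl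
    have e1 : (NF.tri μ₁ μ₂ c k).inv (s • q) 1 = x1 s := rfl
    apply NF.ext2
    · show μ₁⁻¹ * gm a ((NF.tri μ₁ μ₂ c k).inv (s • q)) 0 = _
      rw [gm_zero, e0, e1]
      rfl
    · show μ₂⁻¹ * gm a ((NF.tri μ₁ μ₂ c k).inv (s • q)) 1 -
        μ₁⁻¹ * c * k * (μ₂⁻¹ * (s • q) 1) ^ (k - 1) * μ₂⁻¹ *
          gm a ((NF.tri μ₁ μ₂ c k).inv (s • q)) 0 = _
      rw [gm_zero, gm_one, e0, e1]
      have e2 : μ₂⁻¹ * (s • q) 1 = x1 s := rfl
      rw [e2]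
      show _ = μ₂⁻¹ * (H547.dv a.1 (x0 s) * H547.dv' a.2 (x1 s)) -
        (μ₁⁻¹ * μ₂⁻¹) * ((c * (k : ℝ) * x1 s ^ (k - 1)) *
          (H547.dv' a.1 (x0 s) * H547.dv a.2 (x1 s)))
      ring

/-- the gradients of monomials have bounded derivatives on balls -/
theorem sm_gm (a : ℕ × ℕ) (δ : ℝ) : Sm (ball (0 : E2) δ) (gm a) := by
  have h : ∀ k, ContDiff ℝ ∞ (H547.dv k) := by
    intro k
    unfold H547.dv
    fun_prop
  have h' : ∀ k, ContDiff ℝ ∞ (H547.dv' k) := by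
    intro k
    cases k with
    | zero => exact contDiff_const
    | succ k => exact h k
  have hp : ∀ i : Fin 2, ContDiff ℝ ∞ fun q : E2 => q i := fun i =>
    (EuclideanSpace.proj i : E2 →L[ℝ] ℝ).contDiff
  have hg : ContDiff ℝ ∞ (gm a) := by
    rw [contDiff_euclidean]
    intro i
    fin_cases i
    · exact ((h' a.1).comp (hp 0)).mul ((h a.2).comp (hp 1))
    · exact ((h a.1).comp (hp 0)).mul ((h' a.2).comp (hp 1))
  exact sm_of_contDiffOn isOpen_ball isOpen_univ (isCompact_closedBall (0 : E2) δ)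
    ball_subset_closedBall (subset_univ _) hg.contDiffOn

/-- **(T2)** in the form consumed: no remainder of order `J`. -/
theorem TriN.rem_linA {μ₁ μ₂ c : ℝ} {k : ℕ} (T : TriN H μ₁ μ₂ c k) (I : LInv H) {δ : ℝ}
    (hδ0 : 0 < δ) (hδ : δ ≤ I.ε) (hδr : δ < H.r) {J : ℕ} {a : ℕ × ℕ} (ha0 : a ≠ (0, 0))
    (ha : a.1 + a.2 ≤ J) (hak : c ≠ 0 → k * a.1 + a.2 ≤ J) :
    EqOn (P207N3H639.rem J (fun q => linA H.b I.K q (gm a (I.K q)))) (fun _ => 0)
      (ball (0 : E2) δ) := by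
  refine rem_of_ray (Dom.ball hδ0) J ?_ (T.rayPoly_linA I hδ ha0 ha hak)
  have h1 : Sm (ball (0 : E2) δ) (fun q => gm a (I.K q)) :=
    Sm.comp isOpen_ball (K_maps I hδ) (sm_gm a δ) (I.K_sm.mono (ball_subset_ball hδ))
  exact Sm.bilin isOpen_ball (ContinuousLinearMap.id ℝ (E2 →L[ℝ] E2)) (linA_sm I hδ hδr) h1

theorem rem_gm {δ : ℝ} (hδ0 : 0 < δ) {J : ℕ} {a : ℕ × ℕ} (ha0 : a ≠ (0, 0))
    (ha : a.1 + a.2 ≤ J) :
    EqOn (P207N3H639.rem J (gm a)) (fun _ => 0) (ball (0 : E2) δ) :=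
  rem_of_ray (Dom.ball hδ0) J (sm_gm a δ) (rayPoly_gm ha ha0)

end Vale.Agent.P207.N3.H629
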